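import Vale.Agent.P124.Hotel

/-! The bi-Lipschitz bijection `v ↦ (Zc v, v - Th v)` from `V` onto `V × V`. -/

namespace Vale.Agent.P124

open Filter Topology Finset

/-- The scale used in room `m`. -/
noncomputable def Rv (v : V) (m : ℕ) : ℝ := 1 / ((m : ℝ) + 1) + tl (m / 2) v

lemma tl_le_Rv (v : V) (m : ℕ) : tl (m / 2) v ≤ Rv v m := by
  unfold Rv
  have : 0 < 1 / ((m : ℝ) + 1) := by positivity
  linarith

lemma Rv_pos (v : V) (m : ℕ) : 0 < Rv v m := by
  unfold Rv
  have : 0 < 1 / ((m : ℝ) + 1) := by positivity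
  linarith [tl_nonneg (m / 2) v]

lemma Rv_lip (v w : V) (m : ℕ) : |Rv v m - Rv w m| ≤ ‖v - w‖ := by
  unfold Rv
  rw [add_sub_add_left_eq_sub]
  exact tl_lip _ _ _

lemma abs_al_le_tl (p : ℕ → ℝ) (r : ℝ) (m : ℕ) (v : V) : |al p r m v| ≤ tl m v :=
  abs_al_le _ _ _ _ (fun c => abs_le_tl v (le_idx m c))

/-- The amplitude moved out of room `m`. -/
noncomputable def amp (p R : ℕ → ℝ) (v : ℕ → ℝ) (m : ℕ) : ℝ :=
  al p (R m) m v - al p (R (2 * m)) (2 * m) v

lemma abs_amp_le (p R : ℕ → ℝ) (v : V) (m : ℕ) : |amp p R v m| ≤ 2 * tl m v := by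
  have a := abs_al_le_tl p (R m) m v
  have b := abs_al_le_tl p (R (2 * m)) (2 * m) v
  have c := tl_anti v (by omega : m ≤ 2 * m)
  have d := abs_sub (al p (R m) m v) (al p (R (2 * m)) (2 * m) v)
  unfold amp
  linarith

lemma amp_tendsto (p R : ℕ → ℝ) (v : V) : Tendsto (amp p R v) atTop (𝓝 0) :=
  tendsto_of_abs_le (by simpa using (tl_tendsto v).const_mul 2) (abs_amp_le p R v)

/-- The displacement. -/
noncomputable def Th (v : V) : V :=
  mkV (spr v (Rv v) (amp v (Rv v) v)) (spr_tendsto v _ _ (Rv_pos v) (amp_tendsto _ _ v))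

/-- The absorbed coordinates. -/
noncomputable def Zc (v : V) : V :=
  mkV (fun j => al v (Rv v (2 * j + 1)) (2 * j + 1) v) (tendsto_of_abs_le (tl_tendsto v)
    (fun j => (abs_al_le_tl _ _ _ _).trans (tl_anti v (by omega))))

lemma Th_apply (v : V) (k : ℕ) : Th v k = spr v (Rv v) (amp v (Rv v) v) k := rfl

lemma Zc_apply (v : V) (j : ℕ) : Zc v j = al v (Rv v (2 * j + 1)) (2 * j + 1) v := rfl

lemma alv_lip (v w : V) (m : ℕ) :
    |al v (Rv v m) m v - al w (Rv w m) m w| ≤ (1 + 6 * ep) * ‖v - w‖ := by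
  have h : ∀ (u : V) (c : Cell), |u (idx m c)| ≤ 1 * Rv u m := fun u c => by
    rw [one_mul]
    exact (abs_le_tl u (le_trans (Nat.div_le_self m 2) (le_idx m c))).trans (tl_le_Rv u m)
  have := al_est v w m v w (Rv_pos v m) (Rv_pos w m) (abs_sub_le_norm v w) (Rv_lip v w m)
    (h v) (h w) (abs_sub_le_norm v w)
  linarith

lemma Zc_lip (v w : V) : ‖Zc v - Zc w‖ ≤ 2 * ‖v - w‖ := by
  refine norm_le_of _ (by positivity) (fun j => ?_)
  rw [ZeroAtInftyContinuousMap.sub_apply, Zc_apply, Zc_apply]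
  refine (alv_lip v w _).trans (mul_le_mul_of_nonneg_right ?_ (norm_nonneg _))
  unfold ep; norm_num

lemma abs_amp_le_Rv (v : V) (m : ℕ) : |amp v (Rv v) v m| ≤ 2 * Rv v m := by
  have a := abs_amp_le v (Rv v) v m
  have b := tl_anti v (Nat.div_le_self m 2)
  have c := tl_le_Rv v m
  linarith

lemma Th_lip_apply (v w : V) (k : ℕ) : |Th v k - Th w k| ≤ 3 * ‖v - w‖ := by
  rw [Th_apply, Th_apply]
  unfold spr
  refine (be_est v w (room k) (cell k) (Rv_pos v _) (Rv_pos w _) (abs_sub_le_norm v w)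
    (Rv_lip v w _) (abs_amp_le_Rv v _) (abs_amp_le_Rv w _)).trans ?_
  have a := alv_lip v w (room k)
  have b := alv_lip v w (2 * room k)
  have c : |amp v (Rv v) v (room k) - amp w (Rv w) w (room k)| ≤ 2 * ((1 + 6 * ep) * ‖v - w‖) := by
    unfold amp
    rw [abs_le] at a b ⊢
    constructor <;> linarith [a.1, a.2, b.1, b.2]
  have d := norm_nonneg (v - w)
  unfold ep at *
  linarith

lemma Th_lip (v w : V) : ‖Th v - Th w‖ ≤ 3 * ‖v - w‖ :=
  norm_le_of _ (by positivity) (fun k => Th_lip_apply v w k)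

lemma Th_zero (k : ℕ) : Th 0 k = 0 := by
  have a := abs_spr_le (0 : V) (Rv 0) (amp (0 : V) (Rv 0) (0 : V)) k
  have b := abs_amp_le (0 : V) (Rv 0) (0 : V) (room k)
  have c : tl (room k) 0 ≤ 0 := tl_le _ le_rfl (fun k _ => by simp)
  rw [Th_apply]
  exact abs_nonpos_iff.1 (by linarith)

/-- The amplitude moved into room `m`. -/
noncomputable def src (p R z w : ℕ → ℝ) (m : ℕ) : ℝ :=
  if m % 2 = 0 then al p (R (m / 2)) (m / 2) w else z (m / 2)

/-- The inverse map for frozen parameters. -/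
noncomputable def Phi (p R z w : ℕ → ℝ) (k : ℕ) : ℝ :=
  w k + spr p R (fun m => src p R z w m - al p (R m) m w) k

/-- The scales dominate the amplitudes. -/
def Dom (R z w : ℕ → ℝ) : Prop :=
  ∀ m, 0 < R m ∧ (∀ c, |w (idx m c)| ≤ 3 * R m) ∧ (∀ c, |w (idx (m / 2) c)| ≤ 3 * R m) ∧
    |z (m / 2)| ≤ 3 * R m

lemma abs_src_le {p R z w : ℕ → ℝ} (h : Dom R z w) (m : ℕ) : |src p R z w m| ≤ 3 * R m := by
  unfold src
  split_ifs
  · exact abs_al_le _ _ _ _ (h m).2.2.1
  · exact (h m).2.2.2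

lemma Phi_est {p p' R R' z z' w w' : ℕ → ℝ} {D E : ℝ} (h : Dom R z w) (h' : Dom R' z' w')
    (hp : ∀ i, |p i - p' i| ≤ D) (hR : ∀ m, |R m - R' m| ≤ D) (hz : ∀ k, |z k - z' k| ≤ E)
    (hw : ∀ k, |w k - w' k| ≤ E) (k : ℕ) :
    |Phi p R z w k - Phi p' R' z' w' k| ≤ 3 * E + D / 2 := by
  have hD : 0 ≤ D := le_trans (abs_nonneg _) (hp 0)
  have a : ∀ m, |al p (R m) m w - al p' (R' m) m w'| ≤ E + 6 * ep * 3 * D := fun m =>
    al_est p p' m w w' (h m).1 (h' m).1 hp (hR m) (h m).2.1 (h' m).2.1 hw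
  have b : ∀ m, |src p R z w m - src p' R' z' w' m| ≤ E + 6 * ep * 3 * D := fun m => by
    unfold src
    split_ifs
    · exact a _
    · have := hz (m / 2)
      have he := ep_pos
      have : 0 ≤ 6 * ep * 3 * D := by positivity
      linarith
  have c : ∀ {p R z w : ℕ → ℝ}, Dom R z w → ∀ m,
      |src p R z w m - al p (R m) m w| ≤ 6 * R m := fun {p R z w} h m => by
    have h1 := abs_src_le (p := p) h m
    have h2 := abs_al_le p (R m) m w (h m).2.1
    have h3 := abs_sub (src p R z w m) (al p (R m) m w)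
    linarith
  have d := be_est p p' (room k) (cell k) (h _).1 (h' _).1 hp (hR _) (c (p := p) h (room k))
    (c (p := p') h' (room k))
  have e := hw k
  have a1 := a (room k)
  have b1 := b (room k)
  have f : |src p R z w (room k) - al p (R (room k)) (room k) w -
      (src p' R' z' w' (room k) - al p' (R' (room k)) (room k) w')|
      ≤ 2 * (E + 6 * ep * 3 * D) := by
    rw [abs_le] at a1 b1 ⊢
    constructor <;> linarith [a1.1, a1.2, b1.1, b1.2]
  unfold Phi spr
  unfold ep at *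
  rw [abs_le] at d e ⊢
  constructor <;> linarith [d.1, d.2, e.1, e.2]

lemma inv_one {p R z w v : ℕ → ℝ} (h : ∀ k, v k = Phi p R z w k) :
    (∀ j, z j = al p (R (2 * j + 1)) (2 * j + 1) v) ∧
      ∀ k, w k = v k - spr p R (amp p R v) k := by
  have hv : v = fun k => w k + spr p R (fun m => src p R z w m - al p (R m) m w) k := funext h
  have a : ∀ m, al p (R m) m v = src p R z w m := fun m => by
    rw [hv, al_add_spr]; ring
  constructor
  · intro j
    rw [a, src, if_neg (by omega), (by omega : (2 * j + 1) / 2 = j)]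
  · intro k
    have : amp p R v = fun m => src p R z w m - al p (R m) m w := by
      funext m
      rw [amp, a, a, src.eq_1 p R z w (2 * m), if_pos (by omega), (by omega : 2 * m / 2 = m)]
    rw [this, h k, Phi]; ring

lemma inv_two {p R z w v : ℕ → ℝ} (hz : ∀ j, z j = al p (R (2 * j + 1)) (2 * j + 1) v)
    (hw : ∀ k, w k = v k - spr p R (amp p R v) k) (k : ℕ) : v k = Phi p R z w k := by
  have hv : v = fun k => w k + spr p R (amp p R v) k := by
    funext k; rw [hw k]; ring
  have a : ∀ m, al p (R m) m w = al p (R (2 * m)) (2 * m) v := fun m => by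
    have := al_add_spr p R (amp p R v) m w
    rw [← hv, amp] at this
    linarith
  have b : ∀ m, src p R z w m = al p (R m) m v := fun m => by
    unfold src
    split_ifs with hm
    · rw [a, (by omega : 2 * (m / 2) = m)]
    · rw [hz, (by omega : 2 * (m / 2) + 1 = m)]
  have : (fun m => src p R z w m - al p (R m) m w) = amp p R v := by
    funext m; rw [a, b, amp]
  rw [Phi, this, hw k]; ring

lemma bound_of_inv {p R z w : ℕ → ℝ} {v : V}
    (hz : ∀ j, z j = al p (R (2 * j + 1)) (2 * j + 1) v)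
    (hw : ∀ k, w k = v k - spr p R (amp p R v) k) (m : ℕ) :
    (∀ c, |w (idx m c)| ≤ 3 * Rv v m) ∧ (∀ c, |w (idx (m / 2) c)| ≤ 3 * Rv v m) ∧
      |z (m / 2)| ≤ 3 * Rv v m := by
  have a : ∀ m c, |w (idx m c)| ≤ 3 * tl m v := fun m c => by
    have h1 := abs_spr_le p R (amp p R v) (idx m c)
    rw [room_idx] at h1
    have h2 := abs_amp_le p R v m
    have h3 := abs_le_tl v (le_idx m c)
    have h4 := abs_sub (v (idx m c)) (spr p R (amp p R v) (idx m c))
    rw [hw]; linarith
  have b := tl_le_Rv v m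
  have c := tl_anti v (Nat.div_le_self m 2)
  refine ⟨fun x => by linarith [a m x], fun x => by linarith [a (m / 2) x], ?_⟩
  have d := abs_al_le_tl p (R (2 * (m / 2) + 1)) (2 * (m / 2) + 1) v
  have e := tl_anti v (by omega : m / 2 ≤ 2 * (m / 2) + 1)
  have f := tl_nonneg (m / 2) v
  rw [hz]; linarith

lemma lower_lip (v v' : V) {E : ℝ} (h1 : ‖Zc v - Zc v'‖ ≤ E)
    (h2 : ‖(v - Th v) - (v' - Th v')‖ ≤ E) : ‖v - v'‖ ≤ 6 * E := by
  have hE : 0 ≤ E := le_trans (norm_nonneg _) h1
  have hd : ∀ u : V, Dom (Rv u) (Zc u) (u - Th u : V) := fun u m =>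
    ⟨Rv_pos u m, bound_of_inv (p := u) (R := Rv u) (v := u) (fun _ => rfl) (fun _ => rfl) m⟩
  have hi : ∀ (u : V) (k : ℕ), u k = Phi u (Rv u) (Zc u) (u - Th u : V) k := fun u k =>
    inv_two (fun _ => rfl) (fun _ => rfl) k
  have : ‖v - v'‖ ≤ 3 * E + ‖v - v'‖ / 2 := by
    refine norm_le_of _ (by positivity) (fun k => ?_)
    rw [ZeroAtInftyContinuousMap.sub_apply, hi v k, hi v' k]
    exact Phi_est (hd v) (hd v') (abs_sub_le_norm v v') (Rv_lip v v')
      (fun k => (abs_sub_le_norm _ _ k).trans h1) (fun k => (abs_sub_le_norm _ _ k).trans h2) k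
  linarith

lemma Phi_tendsto (p : V) (R : ℕ → ℝ) (hR : ∀ m, 0 < R m) (z w : V) :
    Tendsto (Phi p R z w) atTop (𝓝 0) := by
  have a : Tendsto (fun m => src p R z w m - al p (R m) m w) atTop (𝓝 0) := by
    have h1 : Tendsto (fun m => tl (m / 2) w + tl (m / 2) z + tl m w) atTop (𝓝 0) := by
      simpa using (((tl_tendsto w).comp tendsto_half).add
        ((tl_tendsto z).comp tendsto_half)).add (tl_tendsto w)
    refine tendsto_of_abs_le h1 (fun m => ?_)
    have h2 : |src p R z w m| ≤ tl (m / 2) w + tl (m / 2) z := by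
      unfold src
      split_ifs
      · linarith [abs_al_le_tl p (R (m / 2)) (m / 2) w, tl_nonneg (m / 2) z]
      · linarith [abs_le_tl z (le_refl (m / 2)), tl_nonneg (m / 2) w]
    have h3 := abs_al_le_tl p (R m) m w
    have h4 := abs_sub (src p R z w m) (al p (R m) m w)
    linarith
  have := (V_tendsto w).add (spr_tendsto p R _ hR a)
  rw [add_zero] at this
  exact this

lemma absorb_surj (z w : V) : ∃ v : V, Zc v = z ∧ v - Th v = w := by
  let om : ℕ → ℝ := fun m => supOn (fun k => room k = m) w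
  let fl : ℕ → ℝ := fun m => max (om m) (max (om (m / 2)) |z (m / 2)|) / 3
  let R : V → ℕ → ℝ := fun v m => max (Rv v m) (fl m)
  have hR : ∀ v m, 0 < R v m := fun v m => lt_of_lt_of_le (Rv_pos v m) (le_max_left _ _)
  have hd : ∀ v, Dom (R v) z w := fun v m => by
    have h1 : fl m ≤ R v m := le_max_right _ _
    have h2 : max (om m) (max (om (m / 2)) |z (m / 2)|) ≤ 3 * R v m := by
      simp only [fl] at h1; linarith
    refine ⟨hR v m, fun c => ?_, fun c => ?_, ?_⟩
    · exact (abs_le_supOn (P := fun k => room k = m) w (room_idx m c)).trans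
        ((le_max_left _ _).trans h2)
    · exact (abs_le_supOn (P := fun k => room k = m / 2) w (room_idx _ c)).trans
        (((le_max_left _ _).trans (le_max_right _ _)).trans h2)
    · exact ((le_max_right _ _).trans (le_max_right _ _)).trans h2
  let T : V → V := fun v => mkV (Phi v (R v) z w) (Phi_tendsto v (R v) (hR v) z w)
  have hT : ContractingWith (1 / 2) T := by
    refine ⟨by norm_num, LipschitzWith.of_dist_le_mul (fun v v' => ?_)⟩
    rw [dist_eq_norm, dist_eq_norm]
    refine norm_le_of _ (by positivity) (fun k => ?_)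
    have := Phi_est (D := ‖v - v'‖) (E := 0) (hd v) (hd v') (abs_sub_le_norm v v')
      (fun m => (abs_max_sub_max_le_abs _ _ _).trans (Rv_lip v v' m)) (by simp) (by simp) k
    rw [ZeroAtInftyContinuousMap.sub_apply]
    simp only [T, mkV_apply]
    push_cast
    linarith
  obtain ⟨v, hv⟩ : ∃ v, T v = v := ⟨_, hT.fixedPoint_isFixedPt⟩
  have h1 : ∀ k, v k = Phi v (R v) z w k := fun k => by
    conv_lhs => rw [← hv]
    rfl
  obtain ⟨hz, hw⟩ := inv_one h1
  have hRv : R v = Rv v := by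
    funext m
    obtain ⟨b1, b2, b3⟩ := bound_of_inv hz hw m
    have hp := Rv_pos v m
    have o : ∀ n, (∀ c, |w (idx n c)| ≤ 3 * Rv v m) → om n ≤ 3 * Rv v m := fun n hn =>
      supOn_le w (by positivity) (fun k hk => by
        rw [← idx_room_cell k, hk]; exact hn _)
    refine max_eq_left ?_
    have : max (om m) (max (om (m / 2)) |z (m / 2)|) ≤ 3 * Rv v m :=
      max_le (o _ b1) (max_le (o _ b2) b3)
    simp only [fl]; linarith
  rw [hRv] at hz hw
  refine ⟨v, ?_, ?_⟩
  · ext j; rw [hz j]; rfl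
  · ext k; rw [hw k]; rfl

end Vale.Agent.P124
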