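import Vale.Agent.P124.Interp

/-! The space of real null sequences and some of its elementary functionals. -/

namespace Vale.Agent.P124

open Filter Topology Finset

/-- Real sequences tending to zero, with the supremum norm. -/
abbrev V : Type := ZeroAtInftyContinuousMap ℕ ℝ

/-- Build a null sequence. -/
def mkV (f : ℕ → ℝ) (h : Tendsto f atTop (𝓝 0)) : V :=
  ⟨⟨f, continuous_of_discreteTopology⟩, by
    rwa [cocompact_eq_cofinite, Nat.cofinite_eq_atTop]⟩

@[simp] lemma mkV_apply (f : ℕ → ℝ) (h : Tendsto f atTop (𝓝 0)) (k : ℕ) : mkV f h k = f k := rfl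

lemma V_tendsto (v : V) : Tendsto v atTop (𝓝 0) := by
  have := v.zero_at_infty'
  rwa [cocompact_eq_cofinite, Nat.cofinite_eq_atTop] at this

lemma abs_le_norm (v : V) (k : ℕ) : |v k| ≤ ‖v‖ := by
  rw [← ZeroAtInftyContinuousMap.norm_toBCF_eq_norm]
  exact v.toBCF.norm_coe_le_norm k

lemma norm_le_of (v : V) {c : ℝ} (hc : 0 ≤ c) (h : ∀ k, |v k| ≤ c) : ‖v‖ ≤ c := by
  rw [← ZeroAtInftyContinuousMap.norm_toBCF_eq_norm]
  exact (BoundedContinuousFunction.norm_le hc).2 h

lemma abs_sub_le_norm (v w : V) (k : ℕ) : |v k - w k| ≤ ‖v - w‖ := abs_le_norm (v - w) k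

lemma tendsto_of_abs_le {f g : ℕ → ℝ} (hg : Tendsto g atTop (𝓝 0)) (h : ∀ k, |f k| ≤ g k) :
    Tendsto f atTop (𝓝 0) :=
  squeeze_zero_norm h hg

open Classical in
/-- Supremum of the coordinates whose index satisfies `P`. -/
noncomputable def supOn (P : ℕ → Prop) (v : V) : ℝ :=
  ‖mkV (fun k => if P k then v k else 0) (tendsto_of_abs_le (by simpa using (V_tendsto v).abs)
    (fun k => by split_ifs <;> simp))‖

lemma supOn_nonneg (P : ℕ → Prop) (v : V) : 0 ≤ supOn P v := norm_nonneg _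

lemma abs_le_supOn {P : ℕ → Prop} (v : V) {k : ℕ} (h : P k) : |v k| ≤ supOn P v := by
  classical
  refine le_trans (le_of_eq ?_) (abs_le_norm _ k)
  simp [h]

lemma supOn_le {P : ℕ → Prop} (v : V) {c : ℝ} (hc : 0 ≤ c) (h : ∀ k, P k → |v k| ≤ c) :
    supOn P v ≤ c := by
  classical
  refine norm_le_of _ hc (fun k => ?_)
  simp only [mkV_apply]
  split_ifs with hk
  · exact h k hk
  · simpa using hc

lemma supOn_le_add (P : ℕ → Prop) (v w : V) : supOn P v ≤ supOn P w + ‖v - w‖ := by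
  refine supOn_le v (add_nonneg (supOn_nonneg _ _) (norm_nonneg _)) (fun k hk => ?_)
  have a := abs_le_supOn w hk
  have b := abs_sub_le_norm v w k
  have c := abs_sub_abs_le_abs_sub (v k) (w k)
  linarith

lemma supOn_lip (P : ℕ → Prop) (v w : V) : |supOn P v - supOn P w| ≤ ‖v - w‖ := by
  have a := supOn_le_add P v w
  have b := supOn_le_add P w v
  rw [norm_sub_rev] at b
  rw [abs_le]; constructor <;> linarith

/-- Tail supremum. -/
noncomputable def tl (N : ℕ) (v : V) : ℝ := supOn (fun k => N ≤ k) v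

lemma tl_nonneg (N : ℕ) (v : V) : 0 ≤ tl N v := supOn_nonneg _ _

lemma abs_le_tl (v : V) {N k : ℕ} (h : N ≤ k) : |v k| ≤ tl N v :=
  abs_le_supOn (P := fun k => N ≤ k) v h

lemma tl_le (v : V) {N : ℕ} {c : ℝ} (hc : 0 ≤ c) (h : ∀ k, N ≤ k → |v k| ≤ c) : tl N v ≤ c :=
  supOn_le v hc h

lemma tl_lip (N : ℕ) (v w : V) : |tl N v - tl N w| ≤ ‖v - w‖ := supOn_lip _ _ _

lemma tl_anti (v : V) {N M : ℕ} (h : N ≤ M) : tl M v ≤ tl N v :=
  tl_le v (tl_nonneg _ _) (fun _ hk => abs_le_tl v (h.trans hk))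

lemma exists_tl_le (v : V) {c : ℝ} (hc : 0 < c) : ∃ N, tl N v ≤ c := by
  have := (Metric.tendsto_atTop.1 (V_tendsto v)) c hc
  obtain ⟨N, hN⟩ := this
  refine ⟨N, tl_le v hc.le (fun k hk => ?_)⟩
  have := hN k hk
  rw [Real.dist_eq, sub_zero] at this
  exact this.le

lemma tl_tendsto (v : V) : Tendsto (fun N => tl N v) atTop (𝓝 0) := by
  rw [Metric.tendsto_atTop]
  intro c hc
  obtain ⟨N, hN⟩ := exists_tl_le v (half_pos hc)
  refine ⟨N, fun n hn => ?_⟩
  rw [Real.dist_eq, sub_zero, abs_of_nonneg (tl_nonneg _ _)]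
  linarith [tl_anti v hn]

lemma exists_tl_le_finset (F : Finset V) {c : ℝ} (hc : 0 < c) : ∃ N, ∀ x ∈ F, tl N x ≤ c := by
  classical
  induction F using Finset.induction_on with
  | empty => exact ⟨0, by simp⟩
  | insert a F _ ih =>
    obtain ⟨N, hN⟩ := ih
    obtain ⟨M, hM⟩ := exists_tl_le a hc
    refine ⟨max N M, fun x hx => ?_⟩
    rcases mem_insert.1 hx with rfl | hx
    · exact (tl_anti _ (le_max_right _ _)).trans hM
    · exact (tl_anti _ (le_max_left _ _)).trans (hN x hx)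

lemma tendsto_half : Tendsto (fun m : ℕ => m / 2) atTop atTop :=
  tendsto_atTop_atTop.2 fun b => ⟨2 * b, fun a ha => by omega⟩

/-- The unit vectors. -/
noncomputable def ee (i : ℕ) : V :=
  mkV (fun k => if k = i then 1 else 0) (by
    apply tendsto_const_nhds.congr'
    filter_upwards [eventually_gt_atTop i] with k hk
    rw [if_neg hk.ne'])

lemma ee_apply (i k : ℕ) : ee i k = if k = i then 1 else 0 := rfl

lemma V_sum_apply (A : Finset ℕ) (f : ℕ → V) (k : ℕ) : (∑ i ∈ A, f i) k = ∑ i ∈ A, f i k := by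
  classical
  induction A using Finset.induction_on with
  | empty => simp
  | insert a A ha ih => rw [sum_insert ha, sum_insert ha, ZeroAtInftyContinuousMap.add_apply, ih]

lemma sum_ee_apply (A : Finset ℕ) (a : ℕ → ℝ) (k : ℕ) :
    (∑ i ∈ A, a i • ee i) k = if k ∈ A then a k else 0 := by
  rw [V_sum_apply]
  simp only [ZeroAtInftyContinuousMap.smul_apply, ee_apply, smul_eq_mul, mul_ite, mul_one,
    mul_zero]
  rw [Finset.sum_ite_eq]

lemma norm_sum_ee (A : Finset ℕ) (a : ℕ → ℝ) (h : ∀ i, |a i| ≤ 1) :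
    ‖∑ i ∈ A, a i • ee i‖ ≤ 1 := by
  refine norm_le_of _ zero_le_one (fun k => ?_)
  rw [sum_ee_apply]
  split_ifs
  · exact h k
  · simp

lemma one_le_norm_ee (i : ℕ) : 1 ≤ ‖ee i‖ := by
  have := abs_le_norm (ee i) i
  simpa [ee_apply] using this

instance V_separable : TopologicalSpace.SeparableSpace V := by
  rw [← TopologicalSpace.isSeparable_univ_iff]
  have h1 : TopologicalSpace.IsSeparable (Set.range ee) :=
    (Set.countable_range ee).isSeparable
  refine (h1.span (R := ℝ)).closure.mono ?_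
  intro v _
  rw [Metric.mem_closure_iff]
  intro c hc
  obtain ⟨N, hN⟩ := exists_tl_le v (half_pos hc)
  refine ⟨∑ i ∈ range N, v i • ee i, ?_, ?_⟩
  · exact Submodule.sum_mem _ (fun i _ => Submodule.smul_mem _ _
      (Submodule.subset_span ⟨i, rfl⟩))
  · rw [dist_eq_norm]
    refine lt_of_le_of_lt (norm_le_of _ (half_pos hc).le (fun k => ?_)) (half_lt_self hc)
    rw [ZeroAtInftyContinuousMap.sub_apply, sum_ee_apply]
    split_ifs with hk
    · simpa using (half_pos hc).le
    · rw [sub_zero]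
      exact (abs_le_tl v (by simpa using hk)).trans hN

end Vale.Agent.P124
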