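import Vale.Agent.P124.C0

/-! Slowly varying rank one projections and the estimates for them. -/

namespace Vale.Agent.P124

open Filter Topology Finset

/-- The small parameter. -/
noncomputable def ep : ℝ := 1 / 200

lemma ep_pos : 0 < ep := by unfold ep; norm_num

/-- Cells of a room. -/
abbrev Cell : Type := ℤ × List ℤ

/-- The room of a coordinate. -/
def room (k : ℕ) : ℕ := k.unpair.1

/-- The cell of a coordinate. -/
def cell (k : ℕ) : Cell := (Denumerable.eqv Cell).symm k.unpair.2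

/-- The coordinate of a cell of a room. -/
def idx (m : ℕ) (c : Cell) : ℕ := Nat.pair m (Denumerable.eqv Cell c)

@[simp] lemma room_idx (m : ℕ) (c : Cell) : room (idx m c) = m := by simp [room, idx]

@[simp] lemma cell_idx (m : ℕ) (c : Cell) : cell (idx m c) = c := by
  simp only [cell, idx, Nat.unpair_pair, Equiv.symm_apply_apply]

lemma idx_room_cell (k : ℕ) : idx (room k) (cell k) = k := by
  simp only [idx, room, cell, Equiv.apply_symm_apply, Nat.pair_unpair]

lemma le_idx (m : ℕ) (c : Cell) : m ≤ idx m c := Nat.left_le_pair _ _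

/-- The scale of level `j`. -/
noncomputable def scl (j : ℤ) : ℝ := Real.exp ((j + 2) / ep)

lemma scl_pos (j : ℤ) : 0 < scl j := Real.exp_pos _

lemma lt_scl {r : ℝ} (hr : 0 < r) {j : ℤ} (h : ep * Real.log r - j < 2) : r < scl j := by
  have h1 : Real.log r < (j + 2) / ep := by
    rw [lt_div_iff₀ ep_pos]; linarith
  calc r = Real.exp (Real.log r) := (Real.exp_log hr).symm
    _ < scl j := Real.exp_lt_exp.2 h1

lemma scl_lt {r : ℝ} (hr : 0 < r) {j : ℤ} (h : -2 < ep * Real.log r - j) :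
    Real.exp (-4 / ep) * scl j < r := by
  have h1 : -4 / ep + (j + 2) / ep < Real.log r := by
    rw [← add_div, div_lt_iff₀ ep_pos]; linarith
  calc Real.exp (-4 / ep) * scl j = Real.exp (-4 / ep + (j + 2) / ep) := by
        rw [Real.exp_add]; rfl
    _ < Real.exp (Real.log r) := Real.exp_lt_exp.2 h1
    _ = r := Real.exp_log hr

/-- Rescaled location. -/
noncomputable def loc (p : ℕ → ℝ) (j : ℤ) (i : ℕ) : ℝ := ep * p i / (scl j * 2 ^ i)

lemma loc_sum_le (p p' : ℕ → ℝ) (j : ℤ) (m : ℕ) {D : ℝ} (h : ∀ i, |p i - p' i| ≤ D) :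
    ∑ i ∈ range m, |loc p j i - loc p' j i| ≤ 2 * ep * D / scl j := by
  have hD : 0 ≤ D := le_trans (abs_nonneg _) (h 0)
  have hs := scl_pos j
  have he := ep_pos
  calc ∑ i ∈ range m, |loc p j i - loc p' j i|
      ≤ ∑ i ∈ range m, (ep * D / scl j) * (1 / 2 : ℝ) ^ i := by
        refine sum_le_sum (fun i _ => ?_)
        have : loc p j i - loc p' j i = (ep / scl j) * (1 / 2 : ℝ) ^ i * (p i - p' i) := by
          simp only [loc, one_div, inv_pow]; field_simp
        rw [this, abs_mul, abs_of_nonneg (by positivity)]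
        calc ep / scl j * (1 / 2 : ℝ) ^ i * |p i - p' i|
            ≤ ep / scl j * (1 / 2 : ℝ) ^ i * D :=
              mul_le_mul_of_nonneg_left (h i) (by positivity)
          _ = _ := by ring
    _ = (ep * D / scl j) * ∑ i ∈ range m, (1 / 2 : ℝ) ^ i := by rw [mul_sum]
    _ ≤ (ep * D / scl j) * 2 :=
        mul_le_mul_of_nonneg_left (sum_geometric_two_le m) (by positivity)
    _ = _ := by ring

/-- The functional of room `m` at location `p` and scale `r`. -/
noncomputable def al (p : ℕ → ℝ) (r : ℝ) (m : ℕ) (w : ℕ → ℝ) : ℝ :=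
  interp (fun j => interpN m (loc p j) (fun ns => w (idx m (j, ns)))) (ep * Real.log r)

/-- The vector of room `m` at location `p` and scale `r`. -/
noncomputable def be (p : ℕ → ℝ) (r : ℝ) (m : ℕ) (c : Cell) : ℝ :=
  psi (ep * Real.log r - c.1) * bumpN m (loc p c.1) c.2

lemma be_nonneg (p : ℕ → ℝ) (r : ℝ) (m : ℕ) (c : Cell) : 0 ≤ be p r m c :=
  mul_nonneg (psi_nonneg _) (bumpN_nonneg _ _ _)

lemma be_le_one (p : ℕ → ℝ) (r : ℝ) (m : ℕ) (c : Cell) : be p r m c ≤ 1 :=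
  mul_le_one₀ (psi_le_one _) (bumpN_nonneg _ _ _) (bumpN_le_one _ _ _)

lemma abs_al_le (p : ℕ → ℝ) (r : ℝ) (m : ℕ) (w : ℕ → ℝ) {M : ℝ} (h : ∀ c, |w (idx m c)| ≤ M) :
    |al p r m w| ≤ M :=
  abs_interp_le _ _ _ (fun _ _ => abs_interpN_le _ _ _ _ (fun _ => h _))

lemma al_sub (p : ℕ → ℝ) (r : ℝ) (m : ℕ) (w w' : ℕ → ℝ) :
    al p r m w - al p r m w' = al p r m (fun k => w k - w' k) := by
  unfold al
  rw [interp_sub]
  congr 1
  funext j
  rw [interpN_sub]

/-- Spread the amplitudes over the rooms. -/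
noncomputable def spr (p : ℕ → ℝ) (R : ℕ → ℝ) (amp : ℕ → ℝ) (k : ℕ) : ℝ :=
  be p (R (room k)) (room k) (cell k) * amp (room k)

lemma al_add_spr (p : ℕ → ℝ) (R : ℕ → ℝ) (amp : ℕ → ℝ) (m : ℕ) (w : ℕ → ℝ) :
    al p (R m) m (fun k => w k + spr p R amp k) = al p (R m) m w + amp m := by
  unfold al
  simp only [spr, room_idx, cell_idx, interpN_add_mul, interp_add_mul]
  congr 1
  rw [interp_eq_one, one_mul]
  intro n hn
  simp only [be]
  rw [interpN_mul, psi_eq_one hn, one_mul]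
  exact interpN_bumpN _ _

lemma log_lip {r r' D : ℝ} (hr : 0 < r) (hrr : r ≤ r') (h : |r - r'| ≤ D) :
    |ep * Real.log r - ep * Real.log r'| ≤ ep * D / r := by
  have hr' : 0 < r' := lt_of_lt_of_le hr hrr
  have h1 : Real.log r ≤ Real.log r' := Real.log_le_log hr hrr
  have h2 : Real.log r' - Real.log r ≤ D / r := by
    rw [← Real.log_div hr'.ne' hr.ne']
    refine (Real.log_le_sub_one_of_pos (div_pos hr' hr)).trans ?_
    rw [le_div_iff₀ hr, sub_mul, div_mul_cancel₀ _ hr.ne']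
    rw [abs_le] at h
    linarith [h.1]
  have he := ep_pos
  rw [← mul_sub, abs_mul, abs_of_pos he, abs_sub_comm, abs_of_nonneg (by linarith), mul_div_assoc]
  exact mul_le_mul_of_nonneg_left h2 he.le

lemma al_par (p p' : ℕ → ℝ) {r r' D M : ℝ} (m : ℕ) (w : ℕ → ℝ) (hr : 0 < r) (hrr : r ≤ r')
    (hp : ∀ i, |p i - p' i| ≤ D) (h : |r - r'| ≤ D) (hw : ∀ c, |w (idx m c)| ≤ M) :
    |al p r m w - al p' r' m w| ≤ 6 * ep * M * D / r := by
  have hD : 0 ≤ D := le_trans (abs_nonneg _) h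
  have hM : 0 ≤ M := le_trans (abs_nonneg _) (hw (0, []))
  have he := ep_pos
  have a : |al p r m w - al p' r m w| ≤ 4 * ep * M * D / r := by
    unfold al
    rw [interp_sub]
    refine abs_interp_le _ _ _ (fun j hj => ?_)
    refine (interpN_lip _ _ _ _ M (fun ns => hw _)).trans ?_
    have h1 := loc_sum_le p p' j m hp
    have h2 : r < scl j := lt_scl hr (by rw [abs_le] at hj; linarith [hj.2])
    have h3 : 2 * ep * D / scl j ≤ 2 * ep * D / r :=
      div_le_div_of_nonneg_left (by positivity) hr h2.le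
    calc 2 * M * ∑ i ∈ range m, |loc p j i - loc p' j i| ≤ 2 * M * (2 * ep * D / r) :=
          mul_le_mul_of_nonneg_left (h1.trans h3) (by positivity)
      _ = _ := by ring
  have b : |al p' r m w - al p' r' m w| ≤ 2 * ep * M * D / r := by
    unfold al
    refine (interp_lip _ _ _ M (fun j => abs_interpN_le _ _ _ _ (fun _ => hw _))).trans ?_
    calc 2 * M * |ep * Real.log r - ep * Real.log r'| ≤ 2 * M * (ep * D / r) :=
          mul_le_mul_of_nonneg_left (log_lip hr hrr h) (by positivity)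
      _ = _ := by ring
  calc |al p r m w - al p' r' m w| ≤ _ := abs_sub_le _ (al p' r m w) _
    _ ≤ 4 * ep * M * D / r + 2 * ep * M * D / r := add_le_add a b
    _ = _ := by ring

lemma be_par (p p' : ℕ → ℝ) {r r' D : ℝ} (m : ℕ) (c : Cell) (hr : 0 < r) (hrr : r ≤ r')
    (hp : ∀ i, |p i - p' i| ≤ D) (h : |r - r'| ≤ D) :
    |be p r m c - be p' r' m c| ≤ 3 * ep * D / r := by
  have hD : 0 ≤ D := le_trans (abs_nonneg _) h
  have he := ep_pos
  have b : |psi (ep * Real.log r - c.1) - psi (ep * Real.log r' - c.1)| ≤ ep * D / r := by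
    refine (psi_lip _ _).trans (le_trans (le_of_eq ?_) (log_lip hr hrr h))
    congr 1; ring
  by_cases h0 : psi (ep * Real.log r - c.1) = 0
  · unfold be
    rw [h0, zero_mul, zero_sub, abs_neg, abs_mul, abs_of_nonneg (bumpN_nonneg _ _ _)]
    rw [h0, zero_sub, abs_neg] at b
    calc _ ≤ |psi (ep * Real.log r' - c.1)| :=
          mul_le_of_le_one_right (abs_nonneg _) (bumpN_le_one _ _ _)
      _ ≤ ep * D / r := b
      _ ≤ _ := div_le_div_of_nonneg_right (by nlinarith) hr.le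
  · have h2 : r < scl c.1 := lt_scl hr (abs_lt.1 (abs_lt_of_psi h0)).2
    have h3 : 2 * ep * D / scl c.1 ≤ 2 * ep * D / r :=
      div_le_div_of_nonneg_left (by positivity) hr h2.le
    have a := (bumpN_lip m _ _ c.2).trans ((loc_sum_le p p' c.1 m hp).trans h3)
    unfold be
    refine (mul_sub_mul_le (psi_nonneg _) (psi_le_one _) (bumpN_nonneg _ _ _)
      (bumpN_le_one _ _ _)).trans ?_
    calc _ ≤ 2 * ep * D / r + ep * D / r := add_le_add a b
      _ = _ := by ring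

lemma al_est_aux (p p' : ℕ → ℝ) {r r' D A E : ℝ} (m : ℕ) (w w' : ℕ → ℝ) (hr : 0 < r)
    (hrr : r ≤ r') (hp : ∀ i, |p i - p' i| ≤ D) (h : |r - r'| ≤ D)
    (hw : ∀ c, |w (idx m c)| ≤ A * r) (hE : ∀ k, |w k - w' k| ≤ E) :
    |al p r m w - al p' r' m w'| ≤ E + 6 * ep * A * D := by
  have a := al_par p p' m w hr hrr hp h hw
  have b : |al p' r' m w - al p' r' m w'| ≤ E := by
    rw [al_sub]; exact abs_al_le _ _ _ _ (fun c => hE _)
  have c : 6 * ep * (A * r) * D / r = 6 * ep * A * D := by field_simp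
  calc _ ≤ _ := abs_sub_le _ (al p' r' m w) _
    _ ≤ _ := add_le_add a b
    _ = _ := by rw [c]; ring

lemma al_est (p p' : ℕ → ℝ) {r r' D A E : ℝ} (m : ℕ) (w w' : ℕ → ℝ) (hr : 0 < r)
    (hr' : 0 < r') (hp : ∀ i, |p i - p' i| ≤ D) (h : |r - r'| ≤ D)
    (hw : ∀ c, |w (idx m c)| ≤ A * r) (hw' : ∀ c, |w' (idx m c)| ≤ A * r')
    (hE : ∀ k, |w k - w' k| ≤ E) :
    |al p r m w - al p' r' m w'| ≤ E + 6 * ep * A * D := by
  rcases le_total r r' with hrr | hrr
  · exact al_est_aux p p' m w w' hr hrr hp h hw hE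
  · rw [abs_sub_comm]
    exact al_est_aux p' p m w' w hr' hrr (fun i => by rw [abs_sub_comm]; exact hp i)
      (by rw [abs_sub_comm]; exact h) hw' (fun k => by rw [abs_sub_comm]; exact hE k)

lemma be_est_aux (p p' : ℕ → ℝ) {r r' D B b b' : ℝ} (m : ℕ) (c : Cell) (hr : 0 < r)
    (hrr : r ≤ r') (hp : ∀ i, |p i - p' i| ≤ D) (h : |r - r'| ≤ D) (hb : |b| ≤ B * r) :
    |be p r m c * b - be p' r' m c * b'| ≤ |b - b'| + 3 * ep * B * D := by
  have a := be_par p p' m c hr hrr hp h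
  have e : be p r m c * b - be p' r' m c * b'
      = be p' r' m c * (b - b') + (be p r m c - be p' r' m c) * b := by ring
  rw [e]
  refine (abs_add_le _ _).trans (add_le_add ?_ ?_)
  · rw [abs_mul, abs_of_nonneg (be_nonneg _ _ _ _)]
    exact mul_le_of_le_one_left (abs_nonneg _) (be_le_one _ _ _ _)
  · rw [abs_mul]
    calc _ ≤ (3 * ep * D / r) * (B * r) :=
          mul_le_mul a hb (abs_nonneg _) (le_trans (abs_nonneg _) a)
      _ = _ := by field_simp

lemma be_est (p p' : ℕ → ℝ) {r r' D B b b' : ℝ} (m : ℕ) (c : Cell) (hr : 0 < r)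
    (hr' : 0 < r') (hp : ∀ i, |p i - p' i| ≤ D) (h : |r - r'| ≤ D) (hb : |b| ≤ B * r)
    (hb' : |b'| ≤ B * r') :
    |be p r m c * b - be p' r' m c * b'| ≤ |b - b'| + 3 * ep * B * D := by
  rcases le_total r r' with hrr | hrr
  · exact be_est_aux p p' m c hr hrr hp h hb
  · rw [abs_sub_comm, abs_sub_comm b]
    exact be_est_aux p' p m c hr' hrr (fun i => by rw [abs_sub_comm]; exact hp i)
      (by rw [abs_sub_comm]; exact h) hb'

lemma cells_finite (m : ℕ) {a : ℝ} (B : ℝ) (ha : 0 < a) :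
    {c : Cell | ∃ (p : ℕ → ℝ) (r : ℝ), a ≤ r ∧ r ≤ B ∧ (∀ i < m, |p i| ≤ B) ∧
      be p r m c ≠ 0}.Finite := by
  have he := ep_pos
  have hf : (⋃ j ∈ Set.Icc (⌊ep * Real.log a⌋ - 2) (⌈ep * Real.log B⌉ + 2),
      (fun ns => ((j, ns) : Cell)) '' {ns : List ℤ | ∃ t : ℕ → ℝ,
        (∀ i < m, |t i| ≤ ep * B / scl j) ∧ bumpN m t ns ≠ 0}).Finite :=
    (Set.finite_Icc _ _).biUnion (fun j _ => (bumpN_finite m _).image _)
  refine hf.subset ?_
  rintro ⟨j, ns⟩ ⟨p, r, h1, h2, h3, h4⟩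
  simp only [be] at h4
  have h5 := abs_lt.1 (abs_lt_of_psi (left_ne_zero_of_mul h4))
  have hr : 0 < r := lt_of_lt_of_le ha h1
  have l1 : ep * Real.log a ≤ ep * Real.log r :=
    mul_le_mul_of_nonneg_left (Real.log_le_log ha h1) he.le
  have l2 : ep * Real.log r ≤ ep * Real.log B :=
    mul_le_mul_of_nonneg_left (Real.log_le_log hr h2) he.le
  have l3 := Int.floor_le (ep * Real.log a)
  have l4 := Int.le_ceil (ep * Real.log B)
  simp only [Set.mem_iUnion]
  refine ⟨j, ⟨?_, ?_⟩, ns, ⟨loc p j, fun i hi => ?_, right_ne_zero_of_mul h4⟩, rfl⟩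
  · have : ((⌊ep * Real.log a⌋ - 2 : ℤ) : ℝ) ≤ j := by push_cast; linarith [h5.1, h5.2]
    exact_mod_cast this
  · have : (j : ℝ) ≤ ((⌈ep * Real.log B⌉ + 2 : ℤ) : ℝ) := by push_cast; linarith [h5.1, h5.2]
    exact_mod_cast this
  · have hs := scl_pos j
    have hB : 0 ≤ B := le_trans hr.le h2
    unfold loc
    rw [abs_div, abs_mul, abs_of_pos he, abs_of_pos (by positivity : 0 < scl j * 2 ^ i)]
    refine div_le_div₀ (by positivity) (mul_le_mul_of_nonneg_left (h3 i hi) he.le) hs ?_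
    exact le_mul_of_one_le_right hs.le (one_le_pow₀ one_le_two)

lemma abs_spr_le (p R amp : ℕ → ℝ) (k : ℕ) : |spr p R amp k| ≤ |amp (room k)| := by
  unfold spr
  rw [abs_mul, abs_of_nonneg (be_nonneg _ _ _ _)]
  exact mul_le_of_le_one_left (abs_nonneg _) (be_le_one _ _ _ _)

lemma spr_tendsto (p : V) (R amp : ℕ → ℝ) (hR : ∀ m, 0 < R m) (h : Tendsto amp atTop (𝓝 0)) :
    Tendsto (spr p R amp) atTop (𝓝 0) := by
  rw [← Nat.cofinite_eq_atTop] at h ⊢
  rw [Metric.tendsto_nhds] at h ⊢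
  intro c hc
  have h1 := h c hc
  rw [eventually_cofinite] at h1 ⊢
  have hf : (⋃ m ∈ {m | ¬dist (amp m) 0 < c}, idx m '' {c : Cell | ∃ (q : ℕ → ℝ) (r : ℝ),
      R m ≤ r ∧ r ≤ max (R m) ‖p‖ ∧ (∀ i < m, |q i| ≤ max (R m) ‖p‖) ∧ be q r m c ≠ 0}).Finite :=
    h1.biUnion (fun m _ => (cells_finite m _ (hR m)).image _)
  refine hf.subset ?_
  intro k hk
  simp only [Set.mem_ofPred_eq, Real.dist_eq, sub_zero, not_lt] at hk
  simp only [Set.mem_iUnion]
  refine ⟨room k, ?_, cell k, ⟨p, R (room k), le_rfl, le_max_left _ _,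
    fun i _ => (abs_le_norm p i).trans (le_max_right _ _), ?_⟩, idx_room_cell k⟩
  · simp only [Set.mem_ofPred_eq, Real.dist_eq, sub_zero, not_lt]
    exact hk.trans (abs_spr_le _ _ _ _)
  · intro h0
    simp only [spr, h0, zero_mul, abs_zero] at hk
    linarith

end Vale.Agent.P124
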