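import Mathlib

/-! Piecewise linear interpolation on integer lattices, and bump functions. -/

namespace Vale.Agent.P124

open Finset

/-- Linear interpolation of a function on the integers. -/
noncomputable def interp (f : ℤ → ℝ) (t : ℝ) : ℝ :=
  (1 - Int.fract t) * f ⌊t⌋ + Int.fract t * f (⌊t⌋ + 1)

lemma interp_add_mul (f g : ℤ → ℝ) (c t : ℝ) :
    interp (fun n => f n + g n * c) t = interp f t + interp g t * c := by
  simp only [interp]; ring

lemma interp_sub (f g : ℤ → ℝ) (t : ℝ) :
    interp f t - interp g t = interp (fun n => f n - g n) t := by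
  simp only [interp]; ring

lemma near_floor (t : ℝ) : |t - (⌊t⌋ : ℤ)| ≤ 1 := by
  have h1 := Int.floor_le t
  have h2 := Int.lt_floor_add_one t
  rw [abs_le]; constructor <;> linarith

lemma near_floor' (t : ℝ) : |t - ((⌊t⌋ + 1 : ℤ) : ℝ)| ≤ 1 := by
  have h1 := Int.floor_le t
  have h2 := Int.lt_floor_add_one t
  push_cast
  rw [abs_le]; constructor <;> linarith

lemma abs_interp_le (f : ℤ → ℝ) (t M : ℝ) (h : ∀ n : ℤ, |t - n| ≤ 1 → |f n| ≤ M) :
    |interp f t| ≤ M := by
  have h1 := h _ (near_floor t)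
  have h2 := h _ (near_floor' t)
  have a0 := Int.fract_nonneg t
  have a1 := Int.fract_lt_one t
  rw [abs_le] at h1 h2 ⊢
  unfold interp
  constructor <;> nlinarith [h1.1, h1.2, h2.1, h2.2]

lemma interp_eq_one (f : ℤ → ℝ) (t : ℝ) (h : ∀ n : ℤ, |t - n| ≤ 1 → f n = 1) :
    interp f t = 1 := by
  unfold interp
  rw [h _ (near_floor t), h _ (near_floor' t)]; ring

lemma interp_lip_aux (f : ℤ → ℝ) (t t' M : ℝ) (h : ∀ n : ℤ, |f n| ≤ M) (htt : t ≤ t') :
    |interp f t - interp f t'| ≤ 2 * M * (t' - t) := by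
  have hM : 0 ≤ M := le_trans (abs_nonneg _) (h 0)
  by_cases h1 : 1 ≤ t' - t
  · have a := abs_interp_le f t M (fun n _ => h n)
    have b := abs_interp_le f t' M (fun n _ => h n)
    rw [abs_le] at a b ⊢
    constructor <;> nlinarith [a.1, a.2, b.1, b.2]
  · push Not at h1
    have f1 : ⌊t⌋ ≤ ⌊t'⌋ := Int.floor_mono htt
    have f2 : ⌊t'⌋ ≤ ⌊t⌋ + 1 := by
      have : ⌊t'⌋ ≤ ⌊t + 1⌋ := Int.floor_mono (by linarith)
      rwa [Int.floor_add_one] at this
    have g1 := Int.floor_le t
    have g2 := Int.lt_floor_add_one t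
    have g3 := Int.floor_le t'
    have g4 := Int.lt_floor_add_one t'
    rcases (by omega : ⌊t'⌋ = ⌊t⌋ ∨ ⌊t'⌋ = ⌊t⌋ + 1) with e | e
    · have a := h ⌊t⌋
      have b := h (⌊t⌋ + 1)
      have : interp f t - interp f t' = (t' - t) * (f ⌊t⌋ - f (⌊t⌋ + 1)) := by
        simp only [interp, Int.fract, e]; ring
      rw [this]
      rw [abs_le] at a b ⊢
      constructor <;> nlinarith [a.1, a.2, b.1, b.2]
    · have a := h ⌊t⌋
      have b := h (⌊t⌋ + 1)
      have c := h (⌊t⌋ + 1 + 1)
      have : interp f t - interp f t' = ((⌊t⌋ : ℝ) + 1 - t) * (f ⌊t⌋ - f (⌊t⌋ + 1))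
          + (t' - ((⌊t⌋ : ℝ) + 1)) * (f (⌊t⌋ + 1) - f (⌊t⌋ + 1 + 1)) := by
        simp only [interp, Int.fract, e]; push_cast; ring
      rw [this]
      rw [e] at g3
      push_cast at g3
      have p1 : 0 ≤ (⌊t⌋ : ℝ) + 1 - t := by linarith
      have p2 : 0 ≤ t' - ((⌊t⌋ : ℝ) + 1) := by linarith
      rw [abs_le] at a b c ⊢
      constructor <;> nlinarith [a.1, a.2, b.1, b.2, c.1, c.2]

lemma interp_lip (f : ℤ → ℝ) (t t' M : ℝ) (h : ∀ n : ℤ, |f n| ≤ M) :
    |interp f t - interp f t'| ≤ 2 * M * |t - t'| := by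
  rcases le_total t t' with htt | htt
  · rw [abs_sub_comm t t', abs_of_nonneg (by linarith : 0 ≤ t' - t)]
    exact interp_lip_aux f t t' M h htt
  · rw [abs_sub_comm, abs_of_nonneg (by linarith : 0 ≤ t - t')]
    exact interp_lip_aux f t' t M h htt

/-- A bump equal to `1` on `[-1,1]` and to `0` outside `(-2,2)`. -/
noncomputable def psi (t : ℝ) : ℝ := max 0 (min 1 (2 - |t|))

lemma psi_nonneg (t : ℝ) : 0 ≤ psi t := le_max_left _ _

lemma psi_le_one (t : ℝ) : psi t ≤ 1 := max_le zero_le_one (min_le_left _ _)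

lemma psi_eq_one {t : ℝ} (h : |t| ≤ 1) : psi t = 1 := by
  unfold psi
  rw [min_eq_left (by linarith), max_eq_right zero_le_one]

lemma abs_lt_of_psi {t : ℝ} (h : psi t ≠ 0) : |t| < 2 := by
  by_contra h2
  push Not at h2
  apply h
  unfold psi
  exact max_eq_left (le_trans (min_le_right _ _) (by linarith))

lemma clamp_lip (a b : ℝ) : |max 0 (min 1 a) - max 0 (min 1 b)| ≤ |a - b| := by
  refine le_trans (abs_max_sub_max_le_max _ _ _ _) (max_le (by simp) ?_)
  refine le_trans (abs_min_sub_min_le_max _ _ _ _) (max_le (by simp) le_rfl)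

lemma psi_lip (t t' : ℝ) : |psi t - psi t'| ≤ |t - t'| := by
  refine le_trans (clamp_lip _ _) ?_
  have : 2 - |t| - (2 - |t'|) = -(|t| - |t'|) := by ring
  rw [this, abs_neg]
  exact abs_abs_sub_abs_le_abs_sub t t'

/-- A cutoff equal to `1` on `(-∞,3/4]` and to `0` on `[1,∞)`. -/
noncomputable def kap (t : ℝ) : ℝ := max 0 (min 1 (4 - 4 * t))

lemma kap_nonneg (t : ℝ) : 0 ≤ kap t := le_max_left _ _

lemma kap_le_one (t : ℝ) : kap t ≤ 1 := max_le zero_le_one (min_le_left _ _)

lemma abs_kap_le (t : ℝ) : |kap t| ≤ 1 := by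
  rw [abs_of_nonneg (kap_nonneg t)]; exact kap_le_one t

lemma kap_eq_one {t : ℝ} (h : t ≤ 3 / 4) : kap t = 1 := by
  unfold kap
  rw [min_eq_left (by linarith), max_eq_right zero_le_one]

lemma lt_of_kap {t : ℝ} (h : kap t ≠ 0) : t < 1 := by
  by_contra h2
  push Not at h2
  apply h
  unfold kap
  exact max_eq_left (le_trans (min_le_right _ _) (by linarith))

lemma kap_lip (t t' : ℝ) : |kap t - kap t'| ≤ 4 * |t - t'| := by
  refine le_trans (clamp_lip _ _) ?_
  have : 4 - 4 * t - (4 - 4 * t') = -(4 * (t - t')) := by ring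
  rw [this, abs_neg, abs_mul]
  norm_num

/-- Multilinear interpolation in the first `m` coordinates. -/
noncomputable def interpN : ℕ → (ℕ → ℝ) → (List ℤ → ℝ) → ℝ
  | 0, _, f => f []
  | m + 1, t, f => interp (fun n => interpN m t (fun ns => f (n :: ns))) (t m)

/-- Product bump attached to a lattice cell. -/
noncomputable def bumpN : ℕ → (ℕ → ℝ) → List ℤ → ℝ
  | 0, _, [] => 1
  | 0, _, _ :: _ => 0
  | _ + 1, _, [] => 0
  | m + 1, t, n :: ns => psi (t m - n) * bumpN m t ns

lemma interpN_add_mul (m : ℕ) (t : ℕ → ℝ) (f g : List ℤ → ℝ) (c : ℝ) :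
    interpN m t (fun ns => f ns + g ns * c) = interpN m t f + interpN m t g * c := by
  induction m generalizing f g with
  | zero => simp [interpN]
  | succ m ih =>
    simp only [interpN]
    rw [← interp_add_mul]
    congr 1
    funext n
    exact ih (fun ns => f (n :: ns)) (fun ns => g (n :: ns))

lemma interpN_zero (m : ℕ) (t : ℕ → ℝ) : interpN m t (fun _ => 0) = 0 := by
  have := interpN_add_mul m t (fun _ => 0) (fun _ => 0) 1
  simp only [add_zero, mul_one] at this
  linarith

lemma interpN_mul (m : ℕ) (t : ℕ → ℝ) (g : List ℤ → ℝ) (c : ℝ) :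
    interpN m t (fun ns => c * g ns) = c * interpN m t g := by
  have := interpN_add_mul m t (fun _ => 0) g c
  rw [interpN_zero] at this
  simp only [zero_add] at this
  rw [mul_comm c, ← this]
  congr 1
  funext ns
  ring

lemma interpN_sub (m : ℕ) (t : ℕ → ℝ) (f g : List ℤ → ℝ) :
    interpN m t f - interpN m t g = interpN m t (fun ns => f ns - g ns) := by
  have := interpN_add_mul m t f g (-1)
  simp only [mul_neg, mul_one] at this
  simp only [sub_eq_add_neg]
  exact this.symm

lemma abs_interpN_le (m : ℕ) (t : ℕ → ℝ) (f : List ℤ → ℝ) (M : ℝ) (h : ∀ ns, |f ns| ≤ M) :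
    |interpN m t f| ≤ M := by
  induction m generalizing f with
  | zero => exact h []
  | succ m ih =>
    simp only [interpN]
    exact abs_interp_le _ _ _ (fun n _ => ih _ (fun ns => h _))

lemma interpN_lip (m : ℕ) (t t' : ℕ → ℝ) (f : List ℤ → ℝ) (M : ℝ) (h : ∀ ns, |f ns| ≤ M) :
    |interpN m t f - interpN m t' f| ≤ 2 * M * ∑ i ∈ range m, |t i - t' i| := by
  induction m generalizing f with
  | zero => simp [interpN]
  | succ m ih =>
    simp only [interpN]
    rw [sum_range_succ, mul_add]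
    have a := interp_lip (fun n => interpN m t' (fun ns => f (n :: ns))) (t m) (t' m) M
      (fun n => abs_interpN_le _ _ _ _ (fun ns => h _))
    have b : |interp (fun n => interpN m t (fun ns => f (n :: ns))) (t m)
        - interp (fun n => interpN m t' (fun ns => f (n :: ns))) (t m)|
        ≤ 2 * M * ∑ i ∈ range m, |t i - t' i| := by
      rw [interp_sub]
      exact abs_interp_le _ _ _ (fun n _ => ih _ (fun ns => h _))
    exact le_trans (abs_sub_le _ _ _) (add_le_add b a)

lemma bumpN_nonneg (m : ℕ) (t : ℕ → ℝ) (ns : List ℤ) : 0 ≤ bumpN m t ns := by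
  induction m generalizing ns with
  | zero => cases ns <;> simp [bumpN]
  | succ m ih =>
    cases ns with
    | nil => simp [bumpN]
    | cons n ns => exact mul_nonneg (psi_nonneg _) (ih ns)

lemma bumpN_le_one (m : ℕ) (t : ℕ → ℝ) (ns : List ℤ) : bumpN m t ns ≤ 1 := by
  induction m generalizing ns with
  | zero => cases ns <;> simp [bumpN]
  | succ m ih =>
    cases ns with
    | nil => simp [bumpN]
    | cons n ns => exact mul_le_one₀ (psi_le_one _) (bumpN_nonneg _ _ _) (ih ns)

lemma interpN_bumpN (m : ℕ) (t : ℕ → ℝ) : interpN m t (bumpN m t) = 1 := by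
  induction m with
  | zero => simp [interpN, bumpN]
  | succ m ih =>
    simp only [interpN, bumpN]
    apply interp_eq_one
    intro n hn
    rw [interpN_mul, ih, psi_eq_one hn, mul_one]

lemma mul_sub_mul_le {a a' b b' : ℝ} (ha : 0 ≤ a) (ha1 : a ≤ 1) (hb : 0 ≤ b') (hb1 : b' ≤ 1) :
    |a * b - a' * b'| ≤ |b - b'| + |a - a'| := by
  have : a * b - a' * b' = a * (b - b') + (a - a') * b' := by ring
  rw [this]
  refine le_trans (abs_add_le _ _) (add_le_add ?_ ?_)
  · rw [abs_mul, abs_of_nonneg ha]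
    exact mul_le_of_le_one_left (abs_nonneg _) ha1
  · rw [abs_mul, abs_of_nonneg hb]
    exact mul_le_of_le_one_right (abs_nonneg _) hb1

lemma bumpN_lip (m : ℕ) (t t' : ℕ → ℝ) (ns : List ℤ) :
    |bumpN m t ns - bumpN m t' ns| ≤ ∑ i ∈ range m, |t i - t' i| := by
  induction m generalizing ns with
  | zero => cases ns <;> simp [bumpN]
  | succ m ih =>
    cases ns with
    | nil => simp only [bumpN, sub_self, abs_zero]; positivity
    | cons n ns =>
      simp only [bumpN]
      rw [sum_range_succ]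
      refine le_trans (mul_sub_mul_le (psi_nonneg _) (psi_le_one _) (bumpN_nonneg _ _ _)
        (bumpN_le_one _ _ _)) (add_le_add (ih ns) ?_)
      refine le_trans (psi_lip _ _) (le_of_eq ?_)
      congr 1; ring

lemma bumpN_diam (m : ℕ) (t t' : ℕ → ℝ) (ns : List ℤ) (h : bumpN m t ns ≠ 0)
    (h' : bumpN m t' ns ≠ 0) (i : ℕ) (hi : i < m) : |t i - t' i| ≤ 4 := by
  induction m generalizing ns with
  | zero => omega
  | succ m ih =>
    cases ns with
    | nil => simp [bumpN] at h
    | cons n ns =>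
      simp only [bumpN] at h h'
      rcases (by omega : i < m ∨ i = m) with h1 | h1
      · exact ih ns (right_ne_zero_of_mul h) (right_ne_zero_of_mul h') h1
      · subst h1
        have a := abs_lt_of_psi (left_ne_zero_of_mul h)
        have b := abs_lt_of_psi (left_ne_zero_of_mul h')
        rw [abs_lt] at a b
        rw [abs_le]; constructor <;> linarith [a.1, a.2, b.1, b.2]

lemma bumpN_finite (m : ℕ) (B : ℝ) :
    {ns : List ℤ | ∃ t : ℕ → ℝ, (∀ i < m, |t i| ≤ B) ∧ bumpN m t ns ≠ 0}.Finite := by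
  induction m with
  | zero =>
    refine (Set.finite_singleton []).subset ?_
    rintro ns ⟨t, -, h⟩
    cases ns with
    | nil => rfl
    | cons n ns => simp [bumpN] at h
  | succ m ih =>
    refine (((Set.finite_Icc (-(⌈B⌉ + 2)) (⌈B⌉ + 2)).prod ih).image
      (fun x : ℤ × List ℤ => x.1 :: x.2)).subset ?_
    rintro ns ⟨t, ht, h⟩
    cases ns with
    | nil => simp [bumpN] at h
    | cons n ns =>
      simp only [bumpN] at h
      refine ⟨(n, ns), ⟨?_, t, fun i hi => ht i (by omega), right_ne_zero_of_mul h⟩, rfl⟩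
      have a := abs_lt_of_psi (left_ne_zero_of_mul h)
      have b := ht m (by omega)
      have c := Int.le_ceil B
      rw [abs_lt] at a
      rw [abs_le] at b
      constructor
      · have : ((-(⌈B⌉ + 2) : ℤ) : ℝ) ≤ n := by push_cast; linarith [a.1, a.2, b.1, b.2]
        exact_mod_cast this
      · have : (n : ℝ) ≤ ((⌈B⌉ + 2 : ℤ) : ℝ) := by push_cast; linarith [a.1, a.2, b.1, b.2]
        exact_mod_cast this

end Vale.Agent.P124
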