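import Vale.Agent.P124.Tools

/-! Tests whose scale stays bounded below kill unconditionally bounded sequences. -/

namespace Vale.Agent.P124

open Filter Topology Finset

variable {μ : ℕ → V →₀ ℝ} {C : ℝ}

lemma Dm_one {k : ℕ} {c : Code} (hc : wt c ≤ k) : Dm k 1 (ev c) := fun ν t ht => by
  rw [one_mul]; exact ht c hc

lemma GK_ev (c : Code) {k : ℕ} (hk : wt c ≤ k) :
    GK k (fun x => ((wt c : ℝ) * 2 ^ k)⁻¹ * ev c x) := by
  have hw : (1 : ℝ) ≤ wt c := by exact_mod_cast wt_pos c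
  have h2 : (1 : ℝ) ≤ 2 ^ k := one_le_pow₀ one_le_two
  have hpos : (0 : ℝ) < wt c * 2 ^ k := by positivity
  constructor
  · intro x y
    rw [← mul_sub, abs_mul, abs_of_pos (inv_pos.2 hpos), inv_mul_le_iff₀ hpos]
    refine (ev_lip c x y).trans (le_of_eq ?_)
    rw [one_div, inv_pow]; field_simp
  · intro ν b hb
    have h1 := hb c hk
    have hb0 : 0 ≤ b := (abs_nonneg _).trans h1
    rw [pr_mul, abs_mul, abs_of_pos (inv_pos.2 hpos), inv_mul_le_iff₀ hpos]
    refine h1.trans ?_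
    have h4 : (1 : ℝ) ≤ 4 ^ k := one_le_pow₀ (by norm_num)
    have h5 : (1 : ℝ) ≤ wt c * 2 ^ k := one_le_mul_of_one_le_of_one_le hw h2
    calc b ≤ 4 ^ k * b := le_mul_of_one_le_left hb0 h4
      _ ≤ _ := le_mul_of_one_le_left (by positivity) h5

lemma single_null (hμ : WUC μ C) (c : Code) :
    Tendsto (fun i => pr (μ i) (ev c)) UU (𝓝 0) := by
  by_contra h
  obtain ⟨c0, hc0, h⟩ := UU_not_tendsto h
  have hw : (0 : ℝ) < wt c := by exact_mod_cast wt_pos c
  have hpos : (0 : ℝ) < wt c * 2 ^ wt c := by positivity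
  obtain ⟨m, hm⟩ := exists_nat_gt (wt c * 2 ^ wt c * C / c0)
  obtain ⟨A, hA1, hA2, -⟩ := exists_chain _ (fun _ _ => True) h (by simp) m
  let s : ℕ → ℝ := fun i => if 0 ≤ pr (μ i) (ev c) then 1 else -1
  have hs1 : ∀ i, |s i| ≤ 1 := fun i => by simp only [s]; split_ifs <;> simp
  have hs2 : ∀ i, s i * pr (μ i) (ev c) = |pr (μ i) (ev c)| := fun i => by
    simp only [s]; split_ifs with h
    · rw [abs_of_nonneg h, one_mul]
    · rw [abs_of_neg (not_le.1 h)]; ring
  have hW := hμ _ _ (GK_ev c le_rfl) A s hs1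
  rw [pr_mul, pr_sum_left] at hW
  have e3 := (le_abs_self _).trans hW
  rw [inv_mul_le_iff₀ hpos] at e3
  have e2 := card_nsmul_le_sum A (fun i => s i * pr (μ i) (ev c)) c0 (fun i hi => by
    rw [hs2]; exact (hA2 i hi).1)
  rw [hA1, nsmul_eq_mul] at e2
  rw [div_lt_iff₀ hc0] at hm
  linarith

lemma scale_mono (r : ℕ → ℝ) {r0 : ℝ} (hr0 : 0 < r0) (h : ∀ᶠ i in UU, r0 ≤ r i) :
    ∀ᶠ i in UU, ∀ᶠ l in UU, r i ≤ 2 * r l := by
  have a : ∀ i, r i < ((⌊r i / r0⌋₊ : ℝ) + 1) * r0 := fun i => by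
    rw [← div_lt_iff₀ hr0]; exact Nat.lt_floor_add_one _
  have b : ∀ i, r0 ≤ r i → (⌊r i / r0⌋₊ : ℝ) * r0 ≤ r i := fun i hi => by
    rw [← le_div_iff₀ hr0]; exact Nat.floor_le (div_nonneg (hr0.le.trans hi) hr0.le)
  rcases UU_nat (fun i => ⌊r i / r0⌋₊) with ⟨n, hn⟩ | hn
  · filter_upwards [hn] with i hi
    filter_upwards [hn, h] with l hl hl2
    have a1 := a i
    have b1 := b l hl2
    rw [hi] at a1
    rw [hl] at b1
    linarith
  · refine Eventually.of_forall (fun i => ?_)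
    filter_upwards [tendsto_atTop.1 hn (⌊r i / r0⌋₊), h] with l hl hl2
    have a1 := a i
    have b1 := b l hl2
    have : (⌊r i / r0⌋₊ : ℝ) ≤ ⌊r l / r0⌋₊ := by exact_mod_cast hl
    nlinarith

lemma tail_escape (hμ : WUC μ C) (c c' : ℕ → Code) {b r0 t : ℝ} (hb : |b| ≤ 1) (hr0 : 0 < r0)
    (ht : 0 < t) (k : ℕ) (M : ℕ → ℕ) (hM : Tendsto M UU atTop)
    (h : ∀ᶠ i in UU, wt (c i) ≤ k ∧ wt (c' i) ≤ k ∧ rho (c' i) = rho (c i) ∧ r0 ≤ rho (c i) ∧
      ∀ x, ev (c i) x - b * ev (c' i) x ≠ 0 → t * rho (c i) ≤ tl (M i) x) :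
    Tendsto (fun i => pr (μ i) (ev (c i)) - b * pr (μ i) (ev (c' i))) UU (𝓝 0) := by
  classical
  by_contra hh
  obtain ⟨c0, hc0, hh⟩ := UU_not_tendsto hh
  obtain ⟨s, hs⟩ : ∃ s : ℕ, 2 / t < 2 ^ s :=
    ((tendsto_pow_atTop_atTop_of_one_lt (one_lt_two : (1 : ℝ) < 2)).eventually_gt_atTop _).exists
  rw [div_lt_iff₀ ht] at hs
  have h2s : (0 : ℝ) < 2 ^ s := by positivity
  have hN : ∀ i, ∃ N, ∀ x ∈ insert 0 (μ i).support, tl N x ≤ 3 / 4 * rho (c i) / 2 ^ s :=
    fun i => exists_tl_le_finset _ (by have := rho_pos (c i); positivity)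
  choose N hN using hN
  let f : ℕ → V → ℝ := fun i x => ev (.tail (c i) (N i) s) x - b * ev (.tail (c' i) (N i) s) x
  have hf : ∀ i, rho (c' i) = rho (c i) → ∀ x,
      f i x = (ev (c i) x - b * ev (c' i) x) * tcut (rho (c i)) (N i) s x := fun i hi x => by
    simp only [f, ev, hi]; ring
  refine tool_disj hμ _ (h.and hh) f ?_ (B := 2) (k0 := k * (1 + 4 * 2 ^ s))
    (L := 2 * ((k * (1 + 4 * 2 ^ s) : ℕ) : ℝ) + 1) hc0 (by positivity) ?_ ?_ ?_
  · filter_upwards [scale_mono (fun i => rho (c i)) hr0 (h.mono (fun i hi => hi.2.2.2.1)), h]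
      with i hi hi2
    filter_upwards [hi, h, tendsto_atTop.1 hM (N i)] with l hl hl2 hl3 x
    by_contra hx
    push Not at hx
    rw [hf i hi2.2.2.1, hf l hl2.2.2.1] at hx
    have a := tl_lt_of_tcut (rho_pos _) (right_ne_zero_of_mul hx.1)
    have d := (hl2.2.2.2.2 x (left_ne_zero_of_mul hx.2)).trans (tl_anti x hl3)
    have e := rho_pos (c l)
    have g := mul_le_mul_of_nonneg_left d h2s.le
    nlinarith
  · intro i hi
    have key : ∀ x ∈ insert 0 (μ i).support, f i x = ev (c i) x - b * ev (c' i) x := fun x hx => by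
      rw [hf i hi.1.2.2.1, tcut_eq_one (rho_pos _), mul_one]
      have := hN i x hx
      rw [le_div_iff₀ h2s] at this
      linarith
    rw [pr_congr (μ i) (g := fun x => ev (c i) x - b * ev (c' i) x) (key 0 (mem_insert_self _ _))
      (fun x hx => key x (mem_insert_of_mem hx)), pr_sub_mul]
    exact hi.2
  · intro i hi
    exact Dm_two (Nat.mul_le_mul_right _ hi.1.1) (Nat.mul_le_mul_right _ hi.1.2.1) hb
  · intro i hi x y
    have a := ev_lip (.tail (c i) (N i) s) x y
    have d := ev_lip (.tail (c' i) (N i) s) x y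
    have a1 : (wt (.tail (c i) (N i) s) : ℝ) ≤ ((k * (1 + 4 * 2 ^ s) : ℕ) : ℝ) := by
      exact_mod_cast Nat.mul_le_mul_right _ hi.1.1
    have d1 : (wt (.tail (c' i) (N i) s) : ℝ) ≤ ((k * (1 + 4 * 2 ^ s) : ℕ) : ℝ) := by
      exact_mod_cast Nat.mul_le_mul_right _ hi.1.2.1
    have n := norm_nonneg (x - y)
    have e : f i x - f i y = (ev (.tail (c i) (N i) s) x - ev (.tail (c i) (N i) s) y)
        - b * (ev (.tail (c' i) (N i) s) x - ev (.tail (c' i) (N i) s) y) := by
      simp only [f]; ring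
    rw [e]
    refine (abs_sub _ _).trans ?_
    rw [abs_mul]
    have g := mul_le_of_le_one_left (abs_nonneg (ev (.tail (c' i) (N i) s) x -
      ev (.tail (c' i) (N i) s) y)) hb
    nlinarith

/-- Iterated tail cutoffs. -/
def tails : List (ℕ × ℕ) → Code → Code
  | [], c => c
  | a :: L, c => tails L (.tail c a.1 a.2)

lemma rho_tails (L : List (ℕ × ℕ)) (c : Code) : rho (tails L c) = rho c := by
  induction L generalizing c with
  | nil => rfl
  | cons a L ih => rw [tails, ih]; rfl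

lemma wt_tails (L : List (ℕ × ℕ)) : ∃ w : ℕ, ∀ c, wt (tails L c) = wt c * w := by
  induction L with
  | nil => exact ⟨1, fun c => by simp [tails]⟩
  | cons a L ih =>
    obtain ⟨w, hw⟩ := ih
    exact ⟨(1 + 4 * 2 ^ a.2) * w, fun c => by rw [tails, hw, wt, mul_assoc]⟩

lemma ev_tails (L : List (ℕ × ℕ)) :
    ∃ g : ℝ → V → ℝ, ∀ c x, ev (tails L c) x = ev c x * g (rho c) x := by
  induction L with
  | nil => exact ⟨fun _ _ => 1, fun c x => by simp [tails]⟩
  | cons a L ih =>
    obtain ⟨g, hg⟩ := ih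
    exact ⟨fun r x => tcut r a.1 a.2 x * g r x, fun c x => by
      rw [tails, hg, ev, rho, mul_assoc]⟩

lemma ne_of_tails {L : List (ℕ × ℕ)} {c : Code} {x : V} (h : ev (tails L c) x ≠ 0) :
    ev c x ≠ 0 := by
  obtain ⟨g, hg⟩ := ev_tails L
  rw [hg] at h
  exact left_ne_zero_of_mul h

lemma eventually_notMem {α : Type} (a : ℕ → α) (e : α → ℕ)
    (h : Tendsto (fun i => e (a i)) UU atTop) {S : Set α} (hS : S.Finite) :
    ∀ᶠ i in UU, a i ∉ S := by
  obtain ⟨B, hB⟩ := (hS.image e).bddAbove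
  filter_upwards [tendsto_atTop.1 h (B + 1)] with i hi hi2
  have := hB ⟨a i, hi2, rfl⟩
  omega

lemma disj_null (hμ : WUC μ C) (c : ℕ → Code) (k : ℕ) (hk : ∀ᶠ i in UU, wt (c i) ≤ k)
    (hR : ∀ᶠ i in UU, ∀ᶠ l in UU, ∀ x, ev (c i) x = 0 ∨ ev (c l) x = 0) :
    Tendsto (fun i => pr (μ i) (ev (c i))) UU (𝓝 0) := by
  by_contra hh
  obtain ⟨c0, hc0, hh⟩ := UU_not_tendsto hh
  refine tool_disj hμ _ (hk.and hh) (fun i => ev (c i)) hR (B := 1) (k0 := k) (L := (k : ℝ) + 1)
    hc0 (by positivity) (fun i hi => hi.2) (fun i hi => Dm_one hi.1) (fun i hi x y => ?_)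
  refine (ev_lip _ x y).trans (mul_le_mul_of_nonneg_right ?_ (norm_nonneg _))
  have : (wt (c i) : ℝ) ≤ k := by exact_mod_cast hi.1
  linarith

lemma disj_null_tails (hμ : WUC μ C) (L : List (ℕ × ℕ)) (c : ℕ → Code) (k : ℕ)
    (hk : ∀ᶠ i in UU, wt (c i) ≤ k)
    (hR : ∀ᶠ i in UU, ∀ᶠ l in UU, ∀ x, ev (c i) x ≠ 0 → ev (c l) x ≠ 0 → False) :
    Tendsto (fun i => pr (μ i) (ev (tails L (c i)))) UU (𝓝 0) := by
  obtain ⟨w, hw⟩ := wt_tails L
  refine disj_null hμ _ (k * w) (hk.mono (fun i hi => ?_)) (hR.mono (fun i hi => ?_))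
  · rw [hw]; exact Nat.mul_le_mul_right _ hi
  · refine hi.mono (fun l hl x => ?_)
    by_contra hx
    push Not at hx
    exact hl x (ne_of_tails hx.1) (ne_of_tails hx.2)

lemma escape_tails (hμ : WUC μ C) (L : List (ℕ × ℕ)) (c : ℕ → Code) {r0 t : ℝ} (hr0 : 0 < r0)
    (ht : 0 < t) (k : ℕ) (M : ℕ → ℕ) (hM : Tendsto M UU atTop)
    (h : ∀ᶠ i in UU, wt (c i) ≤ k ∧ r0 ≤ rho (c i) ∧
      ∀ x, ev (c i) x ≠ 0 → t * rho (c i) ≤ tl (M i) x) :
    Tendsto (fun i => pr (μ i) (ev (tails L (c i)))) UU (𝓝 0) := by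
  obtain ⟨w, hw⟩ := wt_tails L
  have := tail_escape hμ (fun i => tails L (c i)) (fun i => tails L (c i)) (b := 0) (by simp)
    hr0 ht (k * w) M hM (h.mono (fun i hi => ?_))
  · simpa using this
  · have a : wt (tails L (c i)) ≤ k * w := by rw [hw]; exact Nat.mul_le_mul_right _ hi.1
    refine ⟨a, a, rfl, by rw [rho_tails]; exact hi.2.1, fun x hx => ?_⟩
    rw [zero_mul, sub_zero] at hx
    rw [rho_tails]
    exact hi.2.2 x (ne_of_tails hx)

lemma basic_null (hμ : WUC μ C) (L : List (ℕ × ℕ)) (a : ℕ → ℕ) {r0 : ℝ} (hr0 : 0 < r0)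
    (h : ∀ᶠ i in UU, r0 ≤ rho (.basic (a i))) :
    Tendsto (fun i => pr (μ i) (ev (tails L (.basic (a i))))) UU (𝓝 0) := by
  rcases UU_nat (fun i => room (a i)) with ⟨m, hm⟩ | hm
  · rcases UU_nat a with ⟨n, hn⟩ | hn
    · refine (single_null hμ (tails L (.basic n))).congr' ?_
      filter_upwards [hn] with i hi
      rw [hi]
    · refine disj_null_tails hμ L _ 3 (Eventually.of_forall (fun _ => le_rfl)) ?_
      filter_upwards [hm] with i hi
      by_cases h0 : ∃ x0, Th x0 (a i) ≠ 0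
      · obtain ⟨x0, hx0⟩ := h0
        have hs := scl_pos (cell (a i)).1
        have hfin := (cells_finite m (a := 1 / ((m : ℝ) + 1))
          (‖x0‖ + 800 * 2 ^ m * scl (cell (a i)).1) (by positivity)).image (idx m)
        filter_upwards [eventually_notMem a id hn hfin, hm] with l hl hl2 x hx hx2
        apply hl
        have h1 : (1 : ℝ) ≤ 2 ^ m := one_le_pow₀ one_le_two
        have h2 := norm_nonneg x0
        refine ⟨cell (a l), ⟨x, Rv x m, ?_, ?_, fun j hj => ?_, ?_⟩, ?_⟩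
        · unfold Rv; linarith [tl_nonneg (m / 2) x]
        · have := Rv_lt_of_Th hx
          rw [hi] at this
          nlinarith
        · have h3 := Th_diam hx hx0 (i := j) (by rw [hi]; exact hj)
          have h4 := abs_le_norm x0 j
          have h5 := abs_sub_abs_le_abs_sub (x j) (x0 j)
          have h6 : (2 : ℝ) ^ j ≤ 2 ^ m := pow_le_pow_right₀ one_le_two hj.le
          nlinarith
        · have := be_ne_of_Th hx2
          rwa [hl2] at this
        · rw [← hl2]; exact idx_room_cell _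
      · push Not at h0
        exact Eventually.of_forall (fun l x hx _ => hx (h0 x))
  · have hg : 0 < Real.exp (-4 / ep) := Real.exp_pos _
    refine escape_tails hμ L _ hr0 (half_pos hg) 3 (fun i => room (a i) / 2)
      (tendsto_half.comp hm) ?_
    have h1 : Tendsto (fun i => 1 / ((room (a i) : ℝ) + 1)) UU (𝓝 0) :=
      tendsto_one_div_add_atTop_nhds_zero_nat.comp hm
    filter_upwards [h, h1.eventually (gt_mem_nhds (by positivity :
      0 < Real.exp (-4 / ep) / 2 * r0))] with i hi hi2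
    refine ⟨le_rfl, hi, fun x hx => ?_⟩
    have h2 := lt_Rv_of_Th hx
    unfold Rv at h2
    simp only [rho] at hi ⊢
    nlinarith

lemma ball_null (hμ : WUC μ C) (L : List (ℕ × ℕ)) (c : Code) (n : ℕ) (q : ℕ → ℕ →₀ ℤ) :
    Tendsto (fun i => pr (μ i) (ev (tails L (.ball c n (q i))))) UU (𝓝 0) := by
  have hd := rad_pos c n
  rcases UU_nat (fun i => (q i).support.sup id) with ⟨m, hm⟩ | hm
  · rcases UU_nat (fun i => Encodable.encode (q i)) with ⟨e, he⟩ | he
    · obtain ⟨i0, hi0⟩ := he.exists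
      refine (single_null hμ (tails L (.ball c n (q i0)))).congr' ?_
      filter_upwards [he] with i hi
      rw [Encodable.encode_injective (hi.trans hi0.symm)]
    · refine disj_null_tails hμ L _ (wt c * 9) (Eventually.of_forall (fun _ => le_rfl)) ?_
      filter_upwards [hm] with i hi
      let w : ℕ →₀ ℤ := Finsupp.onFinset (range (m + 1)) (fun j => if j < m + 1 then 2 else 0)
        (fun j hj => by
          by_contra h
          exact hj (if_neg (by simpa using h)))
      filter_upwards [eventually_notMem q Encodable.encode he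
        (Set.finite_Icc (q i - w) (q i + w)), hm] with l hl hl2 x hx hx2
      apply hl
      have key : ∀ j, |q l j - q i j| ≤ w j := fun j => by
        simp only [w, Finsupp.onFinset_apply]
        split_ifs with hj
        · have a1 := (abs_sub_le_norm _ _ j).trans_lt (lt_of_bcut hd (right_ne_zero_of_mul hx))
          have a2 := (abs_sub_le_norm _ _ j).trans_lt (lt_of_bcut hd (right_ne_zero_of_mul hx2))
          rw [qv_apply, abs_lt] at a1 a2
          have b1 : ((q l j - q i j : ℤ) : ℝ) ≤ 2 := by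
            push_cast; nlinarith [a1.1, a1.2, a2.1, a2.2]
          have b2 : (-2 : ℝ) ≤ ((q l j - q i j : ℤ) : ℝ) := by
            push_cast; nlinarith [a1.1, a1.2, a2.1, a2.2]
          rw [abs_le]
          exact ⟨by exact_mod_cast b2, by exact_mod_cast b1⟩
        · have z : ∀ u, (q u).support.sup id = m → q u j = 0 := fun u hu => by
            by_contra h
            have := Finset.le_sup (f := id) (Finsupp.mem_support_iff.2 h)
            rw [hu] at this
            exact hj (Nat.lt_succ_of_le this)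
          rw [z l hl2, z i hi]; simp
      constructor
      · intro j
        have := abs_le.1 (key j)
        rw [Finsupp.sub_apply]; linarith [this.1]
      · intro j
        have := abs_le.1 (key j)
        rw [Finsupp.add_apply]; linarith [this.2]
  · refine escape_tails hμ L _ hd one_pos (wt c * 9) _ hm ?_
    filter_upwards [tendsto_atTop.1 hm 1] with i hi
    refine ⟨le_rfl, le_rfl, fun x hx => ?_⟩
    have hne : (q i).support.Nonempty := by
      rw [Finset.nonempty_iff_ne_empty]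
      intro h
      rw [h] at hi
      simp at hi
    obtain ⟨j, hj, hj2⟩ := Finset.exists_mem_eq_sup _ hne id
    rw [hj2, id, one_mul]
    refine le_trans ?_ (abs_le_tl x (le_refl j))
    by_contra hlt
    change ¬rad c n ≤ |x j| at hlt
    have a1 := (abs_sub_le_norm _ _ j).trans_lt (lt_of_bcut hd (right_ne_zero_of_mul hx))
    rw [thr_apply hd, st_eq_zero (not_le.1 hlt).le, qv_apply, zero_sub, abs_neg, abs_mul,
      abs_of_pos hd] at a1
    have a2 : (1 : ℝ) ≤ |(q i j : ℝ)| := by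
      exact_mod_cast Int.one_le_abs (Finsupp.mem_support_iff.1 hj)
    nlinarith

theorem large_null (hμ : WUC μ C) {r0 : ℝ} (hr0 : 0 < r0) (k : ℕ) :
    ∀ c : ℕ → Code, (∀ᶠ i in UU, wt (c i) ≤ k) → (∀ᶠ i in UU, r0 ≤ rho (c i)) →
      ∀ L, Tendsto (fun i => pr (μ i) (ev (tails L (c i)))) UU (𝓝 0) := by
  induction k with
  | zero =>
    intro c hc
    obtain ⟨i, hi⟩ := hc.exists
    have := wt_pos (c i)
    omega
  | succ k ih =>
    intro c hc hr L
    have hcase : ∀ᶠ i in UU, (∃ a, c i = .basic a) ∨ (∃ a : Code × ℕ × ℕ,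
        c i = .tail a.1 a.2.1 a.2.2) ∨ ∃ a : Code × ℕ × (ℕ →₀ ℤ), c i = .ball a.1 a.2.1 a.2.2 :=
      Eventually.of_forall (fun i => by
        cases c i with
        | basic a => exact Or.inl ⟨a, rfl⟩
        | tail c N s => exact Or.inr (Or.inl ⟨(c, N, s), rfl⟩)
        | ball c n q => exact Or.inr (Or.inr ⟨(c, n, q), rfl⟩))
    rcases Ultrafilter.eventually_or.1 hcase with h | h
    · obtain ⟨a, ha⟩ := h.choice
      refine (basic_null hμ L a hr0 ?_).congr' ?_
      · filter_upwards [ha, hr] with i hi hi2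
        rwa [← hi]
      · filter_upwards [ha] with i hi
        rw [hi]
    rcases Ultrafilter.eventually_or.1 h with h | h
    · obtain ⟨a, ha⟩ := h.choice
      have h1 : ∀ᶠ i in UU, wt (a i).1 ≤ k ∧ (a i).2.2 ≤ k + 1 := by
        filter_upwards [ha, hc] with i hi hi2
        rw [hi, wt] at hi2
        have p1 := wt_pos (a i).1
        have p2 : (a i).2.2 < 2 ^ (a i).2.2 := Nat.lt_two_pow_self
        constructor <;> nlinarith
      have h2 : ∀ᶠ i in UU, r0 ≤ rho (a i).1 := by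
        filter_upwards [ha, hr] with i hi hi2
        rwa [hi] at hi2
      obtain ⟨s, hs⟩ := UU_nat_bdd (fun i => (a i).2.2) (k + 1) (h1.mono (fun i hi => hi.2))
      have ih' := ih (fun i => (a i).1) (h1.mono (fun i hi => hi.1)) h2
      rcases UU_nat (fun i => (a i).2.1) with ⟨N, hN⟩ | hN
      · refine (ih' ((N, s) :: L)).congr' ?_
        filter_upwards [ha, hs, hN] with i hi hi2 hi3
        rw [hi, hi2, hi3]; rfl
      · obtain ⟨w, hw⟩ := wt_tails L
        obtain ⟨g, hg⟩ := ev_tails L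
        have := tail_escape hμ (fun i => tails L (c i)) (fun i => tails L (a i).1) (b := 1)
          (by simp) hr0 (t := 3 / 4 / 2 ^ s) (by positivity) ((k + 1) * w) _ hN ?_
        · have h3 := this.add (ih' L)
          simpa using h3
        · filter_upwards [ha, hs, hc, h1, hr] with i hi hi2 hi3 hi4 hi5
          refine ⟨by rw [hw]; exact Nat.mul_le_mul_right _ hi3,
            by rw [hw]; exact Nat.mul_le_mul_right _ (hi4.1.trans (Nat.le_succ k)),
            by rw [rho_tails, rho_tails, hi]; rfl, by rwa [rho_tails], fun x hx => ?_⟩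
          rw [rho_tails]
          by_contra hlt
          apply hx
          rw [hg, hg, hi, ev, rho, hi2, tcut_eq_one (rho_pos _)]
          · ring
          · rw [hi, rho, not_le, div_mul_eq_mul_div, lt_div_iff₀ (by positivity)] at hlt
            linarith
    · obtain ⟨a, ha⟩ := h.choice
      have h1 : ∀ᶠ i in UU, (a i).2.1 ≤ ⌈1 / r0⌉₊ ∧ enc (a i).1 ≤ ⌈1 / r0⌉₊ := by
        filter_upwards [ha, hr] with i hi hi2
        rw [hi, rho, rad, le_div_iff₀ (by positivity), mul_comm, ← le_div_iff₀ hr0] at hi2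
        have p1 := Nat.le_ceil (1 / r0)
        have p2 : (((a i).2.1 + enc (a i).1 + 1 : ℕ) : ℝ) ≤ (⌈1 / r0⌉₊ : ℝ) := by
          push_cast; linarith
        have p3 : (a i).2.1 + enc (a i).1 + 1 ≤ ⌈1 / r0⌉₊ := by exact_mod_cast p2
        omega
      obtain ⟨n, hn⟩ := UU_nat_bdd (fun i => (a i).2.1) _ (h1.mono (fun i hi => hi.1))
      obtain ⟨e, he⟩ := UU_nat_bdd (fun i => enc (a i).1) _ (h1.mono (fun i hi => hi.2))
      obtain ⟨i0, hi0⟩ := he.exists
      refine (ball_null hμ L (a i0).1 n (fun i => (a i).2.2)).congr' ?_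
      filter_upwards [ha, hn, he] with i hi hi2 hi3
      rw [hi, hi2, enc_inj _ _ (hi3.trans hi0.symm)]

end Vale.Agent.P124
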