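import Vale.Agent.P124.Small

/-! The space `YY`, which absorbs `V` by a bi-Lipschitz bijection but contains no linear copy
of it. -/

namespace Vale.Agent.P124

open Filter Topology Finset

/-- Finite sums of functions of distinct levels. -/
def Om : Type := {w : Finset ℕ × (ℕ → V → ℝ) // ∀ k ∈ w.1, GK k (w.2 k)}

/-- Pairing with such a sum. -/
noncomputable def prO (μ : V →₀ ℝ) (w : Om) : ℝ := ∑ k ∈ w.1.1, pr μ (w.1.2 k)

lemma GK_mul {k : ℕ} {g : V → ℝ} (h : GK k g) {s : ℝ} (hs : |s| = 1) :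
    GK k (fun x => s * g x) := by
  constructor
  · intro x y
    rw [← mul_sub, abs_mul, hs, one_mul]; exact h.1 x y
  · intro ν b hb
    rw [pr_mul, abs_mul, hs, one_mul]; exact h.2 ν b hb

lemma pr_add_smul (ν μ : V →₀ ℝ) (s : ℝ) (g : V → ℝ) :
    pr (ν + s • μ) g = pr ν g + s * pr μ g := by
  simp only [pr, map_add, map_smul, smul_eq_mul]

lemma exists_sign (a : ℝ) : ∃ s : ℝ, |s| = 1 ∧ s * a = |a| := by
  rcases le_total 0 a with h | h
  · exact ⟨1, by simp, by rw [abs_of_nonneg h, one_mul]⟩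
  · exact ⟨-1, by simp, by rw [abs_of_nonpos h]; ring⟩

theorem hump {μ : ℕ → V →₀ ℝ} {C : ℝ}
    (H : ∀ (w : Om) (A : Finset ℕ) (e : ℕ → ℝ), (∀ i, |e i| ≤ 1) →
      |prO (∑ i ∈ A, e i • μ i) w| ≤ C) :
    WUC μ C ∧ ∀ t > 0, ∀ᶠ i in UU, ∀ w, |prO (μ i) w| ≤ t := by
  have hμ : WUC μ C := fun k g hg A e he => by
    have := H ⟨({k}, fun _ => g), fun j hj => by rw [mem_singleton.1 hj]; exact hg⟩ A e he
    simpa [prO] using this
  refine ⟨hμ, fun t ht => (UU_em _).resolve_right (fun h => ?_)⟩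
  have h1 : ∀ᶠ i in UU, ∃ w, t < |prO (μ i) w| := h.mono (fun i hi => by
    push Not at hi; exact hi)
  have key : ∀ m : ℕ, ∃ (A : Finset ℕ) (e : ℕ → ℝ) (w : Om), (∀ i, |e i| ≤ 1) ∧
      m * (t / 2) ≤ prO (∑ i ∈ A, e i • μ i) w := by
    intro m
    induction m with
    | zero => exact ⟨∅, fun _ => 0, ⟨(∅, fun _ _ => 0), by simp⟩, by simp, by simp [prO]⟩
    | succ m ih =>
      obtain ⟨A, e, ⟨⟨K, gs⟩, hK⟩, he, hm⟩ := ih
      let k0 := K.sup id
      have hb : 0 < t / 2 / (((k0 : ℝ) + 1) * 4 ^ k0) := by positivity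
      have h2 : ∀ᶠ l in UU, l ∉ A := UU_le (by
        rw [← Nat.cofinite_eq_atTop]; exact A.eventually_cofinite_notMem)
      obtain ⟨l, ⟨⟨⟨K', gs'⟩, hK'⟩, hl1⟩, hl2, hl3⟩ := (h1.and (h2.and (unif_null hμ k0 hb))).exists
      simp only [prO] at hl1 hm
      have h3 : |∑ k ∈ K'.filter (fun k => ¬k0 < k), pr (μ l) (gs' k)| ≤ t / 2 := by
        refine (abs_sum_le_sum_abs _ _).trans ?_
        have h4 : ∀ k ∈ K'.filter (fun k => ¬k0 < k),
            |pr (μ l) (gs' k)| ≤ 4 ^ k0 * (t / 2 / (((k0 : ℝ) + 1) * 4 ^ k0)) := fun k hk => by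
          rw [mem_filter, not_lt] at hk
          refine ((hK' k hk.1).2 (μ l) _ (fun c hc => hl3 c (hc.trans hk.2))).trans ?_
          exact mul_le_mul_of_nonneg_right (pow_le_pow_right₀ (by norm_num) hk.2) hb.le
        refine (sum_le_card_nsmul _ _ _ h4).trans ?_
        have h5 : (K'.filter (fun k => ¬k0 < k)).card ≤ k0 + 1 := by
          refine (card_le_card (t := range (k0 + 1)) (fun k hk => ?_)).trans (card_range _).le
          rw [mem_filter] at hk
          exact mem_range.2 (by omega)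
        have h6 : ((K'.filter (fun k => ¬k0 < k)).card : ℝ) ≤ k0 + 1 := by exact_mod_cast h5
        rw [nsmul_eq_mul]
        refine (mul_le_mul_of_nonneg_right h6 (by positivity)).trans (le_of_eq ?_)
        field_simp
      have h7 := sum_filter_add_sum_filter_not K' (fun k => k0 < k) (fun k => pr (μ l) (gs' k))
      set K2 := K'.filter (fun k => k0 < k) with hK2
      have h8 : t / 2 ≤ |∑ k ∈ K2, pr (μ l) (gs' k)| := by
        rw [← h7] at hl1
        have := abs_add_le (∑ k ∈ K2, pr (μ l) (gs' k))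
          (∑ k ∈ K'.filter (fun k => ¬k0 < k), pr (μ l) (gs' k))
        linarith
      obtain ⟨s, hs1, hs2⟩ := exists_sign (∑ k ∈ K2, pr (μ l) (gs' k))
      obtain ⟨u, hu1, hu2⟩ := exists_sign (s * ∑ k ∈ K2, pr (∑ i ∈ A, e i • μ i) (gs' k)
        + ∑ k ∈ K, pr (μ l) (gs k))
      have hu3 : u * u = 1 := by rw [← abs_mul_abs_self, hu1, one_mul]
      have hdis : ∀ k ∈ K2, k ∉ K := fun k hk hk2 => by
        have := Finset.le_sup (f := id) hk2
        rw [hK2, mem_filter] at hk
        exact absurd hk.2 (not_lt.2 this)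
      refine ⟨insert l A, Function.update e l u,
        ⟨(K ∪ K2, fun k => if k ∈ K then gs k else fun x => (u * s) * gs' k x), ?_⟩, ?_, ?_⟩
      · intro k hk
        by_cases h : k ∈ K
        · simp only [if_pos h]; exact hK k h
        · simp only [if_neg h]
          have := (mem_union.1 hk).resolve_left h
          rw [hK2, mem_filter] at this
          exact GK_mul (hK' k this.1) (by rw [abs_mul, hu1, hs1, one_mul])
      · intro i
        by_cases hi : i = l
        · subst hi; simpa using hu1.le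
        · rw [Function.update_of_ne hi]; exact he i
      · have e1 : ∑ i ∈ insert l A, Function.update e l u i • μ i
            = ∑ i ∈ A, e i • μ i + u • μ l := by
          rw [sum_insert hl2, Function.update_self, add_comm]
          congr 1
          exact sum_congr rfl (fun i hi => by
            rw [Function.update_of_ne (fun h : i = l => hl2 (h ▸ hi))])
        rw [e1]
        simp only [prO]
        rw [sum_union (disjoint_right.2 hdis)]
        have e2 : ∑ k ∈ K, pr (∑ i ∈ A, e i • μ i + u • μ l)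
            (if k ∈ K then gs k else fun x => (u * s) * gs' k x)
            = ∑ k ∈ K, pr (∑ i ∈ A, e i • μ i) (gs k) + u * ∑ k ∈ K, pr (μ l) (gs k) := by
          rw [mul_sum, ← sum_add_distrib]
          exact sum_congr rfl (fun k hk => by rw [if_pos hk, pr_add_smul])
        have e3 : ∑ k ∈ K2, pr (∑ i ∈ A, e i • μ i + u • μ l)
            (if k ∈ K then gs k else fun x => (u * s) * gs' k x)
            = u * s * ∑ k ∈ K2, pr (∑ i ∈ A, e i • μ i) (gs' k)
              + (u * u) * (s * ∑ k ∈ K2, pr (μ l) (gs' k)) := by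
          rw [mul_sum, mul_sum, mul_sum, ← sum_add_distrib]
          exact sum_congr rfl (fun k hk => by
            rw [if_neg (hdis k hk), pr_mul, pr_add_smul]; ring)
        rw [e2, e3, hu3, hs2]
        have := abs_nonneg (s * ∑ k ∈ K2, pr (∑ i ∈ A, e i • μ i) (gs' k)
          + ∑ k ∈ K, pr (μ l) (gs k))
        push_cast
        linarith
  obtain ⟨m, hm⟩ := exists_nat_gt (C / (t / 2))
  obtain ⟨A, e, w, he, hw⟩ := key m
  rw [div_lt_iff₀ (half_pos ht)] at hm
  linarith [(le_abs_self _).trans (H w A e he)]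

/-- Bounded functions on `Om`. -/
abbrev EE : Type := lp (fun _ : Om => ℝ) ⊤

lemma sum_half_le (A : Finset ℕ) : ∑ i ∈ A, (1 / 2 : ℝ) ^ i ≤ 2 :=
  (summable_geometric_two.sum_le_tsum A (fun _ _ => by positivity)).trans_eq tsum_geometric_two

lemma Om_lip (w : Om) (x y : V) :
    |∑ k ∈ w.1.1, (w.1.2 k x - w.1.2 k y)| ≤ 2 * ‖x - y‖ := by
  refine (abs_sum_le_sum_abs _ _).trans ((sum_le_sum (fun k hk => (w.2 k hk).1 x y)).trans ?_)
  rw [← sum_mul]
  refine mul_le_mul_of_nonneg_right ?_ (norm_nonneg _)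
  exact sum_half_le _

/-- Evaluation at a point. -/
noncomputable def dl (v : V) : EE :=
  ⟨fun w => ∑ k ∈ w.1.1, (w.1.2 k v - w.1.2 k 0), memℓp_infty ⟨2 * ‖v - 0‖, by
    rintro _ ⟨w, rfl⟩; exact Om_lip w v 0⟩⟩

lemma dl_apply (v : V) (w : Om) : dl v w = ∑ k ∈ w.1.1, (w.1.2 k v - w.1.2 k 0) := rfl

/-- The lifting of `Th`. -/
noncomputable def SS (v : V) : EE × V := (dl v, Th v)

lemma SS_lip (v v' : V) : ‖SS v - SS v'‖ ≤ 3 * ‖v - v'‖ := by
  rw [Prod.norm_def]
  refine max_le ?_ (Th_lip v v')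
  refine lp.norm_le_of_forall_le (by positivity) (fun w => ?_)
  have h := Om_lip w v v'
  have e : (SS v - SS v').1 w = ∑ k ∈ w.1.1, (w.1.2 k v - w.1.2 k v') := by
    simp only [SS, Prod.fst_sub, lp.coeFn_sub, Pi.sub_apply, dl_apply]
    rw [← sum_sub_distrib]
    exact sum_congr rfl (fun k _ => by ring)
  rw [e, Real.norm_eq_abs]
  linarith [norm_nonneg (v - v')]

/-- The linearization of `SS`. -/
noncomputable def JJ : (V →₀ ℝ) →ₗ[ℝ] EE × V := Finsupp.linearCombination ℝ SS

lemma JJ_fst (μ : V →₀ ℝ) (w : Om) : (JJ μ).1 w = prO μ w := by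
  induction μ using Finsupp.induction_linear with
  | zero => simp [prO, pr]
  | add f g hf hg =>
    rw [map_add, Prod.fst_add, lp.coeFn_add, Pi.add_apply, hf, hg]
    simp only [prO, pr, map_add, sum_add_distrib]
  | single a b =>
    simp only [JJ, prO, pr, Finsupp.linearCombination_single, Prod.smul_fst, lp.coeFn_smul,
      Pi.smul_apply, SS, dl_apply, smul_eq_mul, mul_sum]

lemma JJ_snd (μ : V →₀ ℝ) (k : ℕ) : (JJ μ).2 k = pr μ (ev (.basic k)) := by
  induction μ using Finsupp.induction_linear with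
  | zero => simp [pr]
  | add f g hf hg =>
    rw [map_add, Prod.snd_add, ZeroAtInftyContinuousMap.add_apply, hf, hg]
    simp only [pr, map_add]
  | single a b =>
    simp only [JJ, pr, Finsupp.linearCombination_single, Prod.smul_snd,
      ZeroAtInftyContinuousMap.smul_apply, SS, ev, Th_zero, sub_zero]

/-- The closed span of the range of `SS`. -/
noncomputable def YS : Submodule ℝ (EE × V) := (LinearMap.range JJ).topologicalClosure

/-- The closed span as a type. -/
def YY : Type := YS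

noncomputable instance : NormedAddCommGroup YY := inferInstanceAs (NormedAddCommGroup YS)

noncomputable instance : NormedSpace ℝ YY := inferInstanceAs (NormedSpace ℝ YS)

instance YY_complete : CompleteSpace YY :=
  (LinearMap.range JJ).isClosed_topologicalClosure.completeSpace_coe

instance YY_separable : TopologicalSpace.SeparableSpace YY := by
  have h1 : Continuous SS := (LipschitzWith.of_dist_le_mul (K := 3) (fun x y => by
    rw [dist_eq_norm, dist_eq_norm]; simpa using SS_lip x y)).continuous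
  have h2 := ((TopologicalSpace.isSeparable_range h1).span (R := ℝ)).closure
  rw [← Finsupp.range_linearCombination] at h2
  exact h2.separableSpace

/-- The inclusion of `YY` in the ambient space. -/
noncomputable def inc : YY →ₗ[ℝ] EE × V := YS.subtype

lemma norm_inc (y : YY) : ‖inc y‖ = ‖y‖ := rfl

lemma inc_approx (y : YY) {t : ℝ} (ht : 0 < t) : ∃ μ : V →₀ ℝ, ‖inc y - JJ μ‖ ≤ t := by
  obtain ⟨_, ⟨μ, rfl⟩, hμ⟩ := Metric.mem_closure_iff.1 y.2 t ht
  exact ⟨μ, by rw [← dist_eq_norm]; exact hμ.le⟩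

/-- The lifting as a map into `YY`. -/
noncomputable def SY (v : V) : YY :=
  ⟨SS v, (LinearMap.range JJ).le_topologicalClosure ⟨Finsupp.single v 1, by simp [JJ]⟩⟩

lemma inc_SY (v : V) : inc (SY v) = SS v := rfl

/-- The second coordinate. -/
noncomputable def QQ (y : YY) : V := (inc y).2

lemma QQ_lip (y y' : YY) : ‖QQ y - QQ y'‖ ≤ ‖y - y'‖ := by
  rw [← norm_inc, map_sub]
  exact norm_snd_le (inc y - inc y')

lemma QQ_add_SY (y : YY) (v : V) : QQ (y + SY v) = QQ y + Th v := by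
  simp only [QQ, map_add, inc_SY, Prod.snd_add, SS]

lemma QQ_sub_SY (y : YY) (v : V) : QQ (y - SY v) = QQ y - Th v := by
  simp only [QQ, map_sub, inc_SY, Prod.snd_sub, SS]

lemma SY_lip (v v' : V) : ‖SY v - SY v'‖ ≤ 3 * ‖v - v'‖ := by
  rw [← norm_inc, map_sub]
  exact SS_lip v v'

/-- The absorbing map. -/
noncomputable def gg (y : YY) : V × YY := (Zc (QQ y), y - SY (QQ y))

lemma gg_upper (y y' : YY) : ‖gg y - gg y'‖ ≤ 4 * ‖y - y'‖ := by
  have a := QQ_lip y y'
  have n := norm_nonneg (y - y')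
  rw [Prod.norm_def]
  refine max_le ?_ ?_
  · have := Zc_lip (QQ y) (QQ y')
    simp only [gg, Prod.fst_sub]; linarith
  · have b := SY_lip (QQ y) (QQ y')
    have e : (gg y - gg y').2 = (y - y') - (SY (QQ y) - SY (QQ y')) := by
      simp only [gg, Prod.snd_sub]; abel
    rw [e]
    linarith [norm_sub_le (y - y') (SY (QQ y) - SY (QQ y'))]

lemma gg_lower (y y' : YY) : ‖y - y'‖ ≤ 19 * ‖gg y - gg y'‖ := by
  have a : ‖(gg y).2 - (gg y').2‖ ≤ ‖gg y - gg y'‖ := norm_snd_le (gg y - gg y')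
  have a' := (QQ_lip (gg y).2 (gg y').2).trans a
  have b : ‖QQ y - QQ y'‖ ≤ 6 * ‖gg y - gg y'‖ :=
    lower_lip _ _ (norm_fst_le (gg y - gg y')) (by
      rw [← QQ_sub_SY, ← QQ_sub_SY]; exact a')
  have c := SY_lip (QQ y) (QQ y')
  have e : y - y' = ((gg y).2 - (gg y').2) + (SY (QQ y) - SY (QQ y')) := by
    simp only [gg]; abel
  rw [e]
  linarith [norm_add_le ((gg y).2 - (gg y').2) (SY (QQ y) - SY (QQ y'))]

lemma gg_bijective : Function.Bijective gg := by
  constructor
  · intro y y' h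
    have := gg_lower y y'
    rw [h, sub_self, norm_zero, mul_zero] at this
    exact sub_eq_zero.1 (norm_le_zero_iff.1 this)
  · rintro ⟨z, y⟩
    obtain ⟨v, h1, h2⟩ := absorb_surj z (QQ y)
    have e : QQ (y + SY v) = v := by
      rw [QQ_add_SY, ← h2]; abel
    refine ⟨y + SY v, ?_⟩
    simp only [gg, e, h1, add_sub_cancel_right]

lemma sum_smul_aux {E : Type} [AddCommGroup E] [Module ℝ E] (A : Finset ℕ) (e : ℕ → ℝ)
    (a b : ℕ → E) : ∑ i ∈ A, e i • b i = ∑ i ∈ A, e i • a i - ∑ i ∈ A, e i • (a i - b i) := by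
  simp only [smul_sub, sum_sub_distrib]
  abel

theorem no_c0 (T : V →L[ℝ] YY) {c : ℝ} (hc : 0 < c) (hT : ∀ v, c * ‖v‖ ≤ ‖T v‖) : False := by
  have h1 : ∀ i : ℕ, ∃ μ : V →₀ ℝ, ‖inc (T (ee i)) - JJ μ‖ ≤ c / 4 * (1 / 2) ^ i := fun i =>
    inc_approx _ (by positivity)
  choose μ hμ using h1
  have H : ∀ (w : Om) (A : Finset ℕ) (e : ℕ → ℝ), (∀ i, |e i| ≤ 1) →
      |prO (∑ i ∈ A, e i • μ i) w| ≤ ‖T‖ + c / 4 * 2 := fun w A e he => by
    rw [← JJ_fst]
    refine (lp.norm_apply_le_norm ENNReal.top_ne_zero _ w).trans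
      ((norm_fst_le (JJ (∑ i ∈ A, e i • μ i))).trans ?_)
    have e1 : JJ (∑ i ∈ A, e i • μ i) = inc (T (∑ i ∈ A, e i • ee i))
        - ∑ i ∈ A, e i • (inc (T (ee i)) - JJ (μ i)) := by
      simp only [map_sum, map_smul]
      exact sum_smul_aux A e (fun i => inc (T (ee i))) (fun i => JJ (μ i))
    rw [e1]
    refine (norm_sub_le _ _).trans (add_le_add ?_ ?_)
    · rw [norm_inc]
      exact (T.le_opNorm _).trans (mul_le_of_le_one_right (norm_nonneg _) (norm_sum_ee A e he))
    · refine (norm_sum_le _ _).trans ((sum_le_sum (g := fun i => c / 4 * (1 / 2) ^ i)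
        (fun i _ => ?_)).trans ?_)
      · rw [norm_smul]
        exact (mul_le_of_le_one_left (norm_nonneg _) (he i)).trans (hμ i)
      · rw [← mul_sum]
        exact mul_le_mul_of_nonneg_left (sum_half_le _) (by positivity)
  obtain ⟨hW, h2⟩ := hump H
  obtain ⟨i, hi1, hi2⟩ := ((h2 (c / 4) (by positivity)).and
    (unif_null hW 3 (by positivity : 0 < c / 4))).exists
  have h3 : ‖JJ (μ i)‖ ≤ c / 4 := by
    rw [Prod.norm_def]
    refine max_le (lp.norm_le_of_forall_le (by positivity) (fun w => ?_))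
      (norm_le_of _ (by positivity) (fun k => ?_))
    · rw [JJ_fst]; exact hi1 w
    · rw [JJ_snd]; exact hi2 _ le_rfl
  have h4 : c ≤ ‖inc (T (ee i))‖ :=
    (le_mul_of_one_le_right hc.le (one_le_norm_ee i)).trans (hT (ee i))
  have h5 : c / 4 * (1 / 2) ^ i ≤ c / 4 :=
    mul_le_of_le_one_right (by positivity) (pow_le_one₀ (by norm_num) (by norm_num))
  have h6 := norm_sub_norm_le (inc (T (ee i))) (JJ (μ i))
  linarith [hμ i]

theorem not_iso : ¬∃ T : YY →L[ℝ] V × YY, Function.Bijective T := by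
  rintro ⟨T, hT⟩
  let U := ContinuousLinearEquiv.ofBijective T (LinearMap.ker_eq_bot.2 hT.1)
    (LinearMap.range_eq_top.2 hT.2)
  refine no_c0 ((U.symm : V × YY →L[ℝ] YY).comp (ContinuousLinearMap.inl ℝ V YY))
    (c := (‖T‖ + 1)⁻¹) (by positivity) (fun v => ?_)
  rw [inv_mul_le_iff₀ (by positivity)]
  have h1 : T (U.symm (v, 0)) = (v, 0) := U.apply_symm_apply (v, 0)
  have h2 := T.le_opNorm (U.symm (v, 0))
  rw [h1] at h2
  have h3 : ‖v‖ ≤ ‖((v, 0) : V × YY)‖ := norm_fst_le ((v, 0) : V × YY)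
  have h4 := norm_nonneg (U.symm (v, 0))
  change ‖v‖ ≤ (‖T‖ + 1) * ‖U.symm (v, 0)‖
  linarith

end Vale.Agent.P124
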