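import Vale.Agent.P124.Large

/-! Tests whose scale tends to zero kill unconditionally bounded sequences. -/

namespace Vale.Agent.P124

open Filter Topology Finset

variable {μ : ℕ → V →₀ ℝ} {C : ℝ}

lemma exists_rad_le (c : Code) {t : ℝ} (ht : 0 < t) : ∃ n, rad c n ≤ t := by
  obtain ⟨n, hn⟩ := exists_nat_one_div_lt ht
  refine ⟨n, le_trans ?_ hn.le⟩
  unfold rad
  refine one_div_le_one_div_of_le (by positivity) ?_
  have : (0 : ℝ) ≤ enc c := Nat.cast_nonneg _
  linarith

lemma cont_coord (j : ℕ) : Continuous (fun x : V => x j) :=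
  (LipschitzWith.of_dist_le_mul (K := 1) (fun x y => by
    rw [Real.dist_eq, dist_eq_norm]; simpa using abs_sub_le_norm x y j)).continuous

lemma cont_tl (N : ℕ) : Continuous (tl N) :=
  (LipschitzWith.of_dist_le_mul (K := 1) (fun x y => by
    rw [Real.dist_eq, dist_eq_norm]; simpa using tl_lip N x y)).continuous

lemma small_ev (r : ℕ → ℝ) (hr : Tendsto r UU (𝓝 0)) (a : ℝ) {t : ℝ} (ht : 0 < t) :
    ∀ᶠ i in UU, a * r i ≤ t := by
  have := hr.const_mul a
  rw [mul_zero] at this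
  exact this.eventually (ge_mem_nhds ht)

lemma exists_limit (d : ℕ → Code) (N : ℕ → ℕ) (x0 : ℕ → V)
    (hr : Tendsto (fun i => rho (d i)) UU (𝓝 0))
    (hN : ∀ i x, ev (d i) x ≠ 0 → tl (N i) x ≤ rho (d i))
    (hx0 : ∀ᶠ i in UU, ev (d i) (x0 i) ≠ 0)
    (h : ∀ᶠ i in UU, ∀ᶠ l in UU, ∃ x, ev (d i) x ≠ 0 ∧ ev (d l) x ≠ 0) :
    ∃ p : V, ∀ j, Tendsto (fun l => x0 l j) UU (𝓝 (p j)) := by
  have h1 : ∀ j : ℕ, ∃ p, Tendsto (fun l => x0 l j) UU (𝓝 p) := fun j => by
    obtain ⟨i, hi1, hi2, hi3⟩ := (h.and (hx0.and (small_ev _ hr ((j : ℝ) + 1) one_pos))).exists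
    refine UU_lim _ (|x0 i j| + 800 * 2 ^ j * rho (d i) + 1) ?_
    filter_upwards [hi1, hx0, small_ev _ hr ((j : ℝ) + 1) one_pos,
      small_ev _ hr (800 * 2 ^ j) one_pos] with l hl1 hl2 hl3 hl4
    obtain ⟨x, hx1, hx2⟩ := hl1
    have a := ev_loc _ _ _ hx1 hi2 j hi3
    have b := ev_loc _ _ _ hl2 hx2 j hl3
    have c1 := abs_sub_abs_le_abs_sub (x j) (x0 i j)
    have c2 := abs_sub_abs_le_abs_sub (x0 l j) (x j)
    linarith
  choose p hp using h1
  have h2 : Tendsto p atTop (𝓝 0) := by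
    rw [Metric.tendsto_atTop]
    intro t ht
    obtain ⟨i, hi1, hi2⟩ := (h.and (small_ev _ hr 1 (by positivity : 0 < t / 3))).exists
    refine ⟨N i, fun j hj => ?_⟩
    rw [Real.dist_eq, sub_zero]
    have : |p j| ≤ 2 * t / 3 := by
      refine le_of_tendsto (hp j).abs ?_
      filter_upwards [hi1, hx0, small_ev _ hr ((j : ℝ) + 1) one_pos,
        small_ev _ hr (800 * 2 ^ j) (by positivity : 0 < t / 3)] with l hl1 hl2 hl3 hl4
      obtain ⟨x, hx1, hx2⟩ := hl1
      have a := (abs_le_tl x hj).trans (hN i x hx1)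
      have b := ev_loc _ _ _ hl2 hx2 j hl3
      have c2 := abs_sub_abs_le_abs_sub (x0 l j) (x j)
      linarith
    linarith
  exact ⟨mkV p h2, hp⟩

lemma flat_false (hμ : WUC μ C) (d : ℕ → Code) (N : ℕ → ℕ) (x0 : ℕ → V) (k : ℕ) {c0 : ℝ}
    (hc0 : 0 < c0) (hr : Tendsto (fun i => rho (d i)) UU (𝓝 0))
    (hN : ∀ i x, ev (d i) x ≠ 0 → tl (N i) x ≤ rho (d i))
    (hx0 : ∀ᶠ i in UU, ev (d i) (x0 i) ≠ 0) (hk : ∀ᶠ i in UU, wt (d i) ≤ k)
    (hc : ∀ᶠ i in UU, c0 ≤ |pr (μ i) (ev (d i))|) (p : V)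
    (hp : ∀ j, Tendsto (fun l => x0 l j) UU (𝓝 (p j))) : False := by
  have hn : ∀ i, ∃ n, rad (d i) n ≤ rho (d i) / 8 ∧
      (∑ x ∈ (μ i).support, |μ i x|) * (2 * (((wt (d i) * 9 : ℕ) : ℝ) * rad (d i) n)) ≤ c0 / 2 := by
    intro i
    have hT : 0 ≤ ∑ x ∈ (μ i).support, |μ i x| := sum_nonneg (fun _ _ => abs_nonneg _)
    have hp : 0 < (∑ x ∈ (μ i).support, |μ i x|) * (2 * ((wt (d i) * 9 : ℕ) : ℝ)) + 1 := by
      positivity
    have hrho := rho_pos (d i)
    obtain ⟨n, hn⟩ := exists_rad_le (d i) (lt_min (by positivity : 0 < rho (d i) / 8)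
      (div_pos (half_pos hc0) hp))
    refine ⟨n, hn.trans (min_le_left _ _), ?_⟩
    have h1 := hn.trans (min_le_right _ _)
    rw [le_div_iff₀ hp] at h1
    have := rad_pos (d i) n
    nlinarith
  choose n hn1 hn2 using hn
  have hq : ∀ i, ∃ q : ℕ →₀ ℤ, ‖thr (rad (d i) (n i)) p - qv (rad (d i) (n i)) q‖
      ≤ rad (d i) (n i) / 2 := fun i => exists_qv (rad_pos _ _) p
  choose q hq using hq
  have hN' : ∀ i, ∃ M, N i ≤ M ∧ tl M p ≤ rho (d i) / 2 := fun i => by
    obtain ⟨M, hM⟩ := exists_tl_le p (half_pos (rho_pos (d i)))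
    exact ⟨max (N i) M, le_max_left _ _, (tl_anti _ (le_max_right _ _)).trans hM⟩
  choose M hM1 hM2 using hN'
  let f : ℕ → V → ℝ := fun i x => ev (d i) x - 1 * ev (.ball (d i) (n i) (q i)) x
  let NN : ℕ → V → Prop := fun i x => rad (d i) (n i) / 4 ≤ ‖x - p‖ ∧
    ((tl (N i) x ≤ rho (d i) ∧ ∀ j : ℕ, ((j : ℝ) + 1) * rho (d i) ≤ 1 →
      |x j - x0 i j| ≤ 800 * 2 ^ j * rho (d i)) ∨ ‖x - p‖ ≤ 4 * rad (d i) (n i))
  let Rel : ℕ → ℕ → Prop := fun i l => 8 * rho (d l) < rad (d i) (n i) ∧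
    ∀ x, NN l x → ∀ j < M i, |x j - p j| ≤ rho (d i)
  refine tool_tri hμ _ Rel (hx0.and (hk.and hc)) (Eventually.of_forall (fun i => ?_)) f NN
    (c := c0 / 2) (B := 2) (L := 10 * (k : ℝ) + 1) (k0 := k * 9) (half_pos hc0) (by positivity)
    ?_ ?_ ?_ ?_ ?_
  · have hi := rho_pos (d i)
    have h1 : ∀ᶠ l in UU, ∀ j ∈ range (M i), ((j : ℝ) + 1) * rho (d l) ≤ 1 ∧
        800 * 2 ^ j * rho (d l) ≤ rho (d i) / 2 ∧ |x0 l j - p j| ≤ rho (d i) / 2 := by
      refine (eventually_all_finset _).2 (fun j _ => (small_ev _ hr _ one_pos).and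
        ((small_ev _ hr _ (half_pos hi)).and ?_))
      have := (Metric.tendsto_nhds.1 (hp j)) _ (half_pos hi)
      exact this.mono (fun l hl => by rw [Real.dist_eq] at hl; exact hl.le)
    filter_upwards [h1, small_ev _ hr 8 (half_pos (rad_pos (d i) (n i))), small_ev _ hr 1 hi]
      with l hl1 hl2 hl3
    refine ⟨by linarith [rad_pos (d i) (n i)], fun x hx j hj => ?_⟩
    obtain ⟨a1, a2, a3⟩ := hl1 j (mem_range.2 hj)
    rcases hx.2 with hx | hx
    · have b := hx.2 j a1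
      have c := abs_sub_le (x j) (x0 l j) (p j)
      linarith
    · have b := abs_sub_le_norm x p j
      have c := hn1 l
      have e := rho_pos (d l)
      linarith
  · intro i hi
    simp only [f]
    rw [pr_sub_mul, one_mul]
    have a := (abs_pr_le (μ i) (ev_bdd (.ball (d i) (n i) (q i)))).trans (hn2 i)
    have b := abs_sub_abs_le_abs_sub (pr (μ i) (ev (d i))) (pr (μ i) (ev (.ball (d i) (n i) (q i))))
    linarith [hi.2.2]
  · intro i hi
    exact Dm_two (hi.2.1.trans (Nat.le_mul_of_pos_right _ (by norm_num)))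
      (Nat.mul_le_mul_right _ hi.2.1) (by simp)
  · intro i hi x y
    have a := ev_lip (d i) x y
    have b := ev_lip (.ball (d i) (n i) (q i)) x y
    have a1 : (wt (d i) : ℝ) ≤ k := by exact_mod_cast hi.2.1
    simp only [wt] at b
    push_cast at b
    have e : f i x - f i y = (ev (d i) x - ev (d i) y)
        - (ev (.ball (d i) (n i) (q i)) x - ev (.ball (d i) (n i) (q i)) y) := by
      simp only [f]; ring
    rw [e]
    refine (abs_sub _ _).trans ?_
    have n0 := norm_nonneg (x - y)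
    nlinarith
  · intro i hi x hx
    have hd := rad_pos (d i) (n i)
    have hcn : Continuous (fun y : V => ‖y - p‖) := by fun_prop
    suffices h : ∃ t, ∀ᶠ y in 𝓝 x, f i y = t by
      obtain ⟨t, ht⟩ := h
      rw [ht.self_of_nhds]; exact ht
    by_cases h1 : ‖x - p‖ < rad (d i) (n i) / 4
    · refine ⟨ev (d i) (qv (rad (d i) (n i)) (q i)), ?_⟩
      filter_upwards [hcn.continuousAt.eventually (gt_mem_nhds h1)] with y hy
      have a := thr_lip (rad (d i) (n i)) y p
      have b := norm_sub_le_norm_sub_add_norm_sub (thr (rad (d i) (n i)) y)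
        (thr (rad (d i) (n i)) p) (qv (rad (d i) (n i)) (q i))
      have c := hq i
      simp only [f, ev]
      rw [bcut_eq_one hd (by linarith)]
      ring
    · refine ⟨0, ?_⟩
      have h2 : ¬((tl (N i) x ≤ rho (d i) ∧ ∀ j : ℕ, ((j : ℝ) + 1) * rho (d i) ≤ 1 →
          |x j - x0 i j| ≤ 800 * 2 ^ j * rho (d i)) ∨ ‖x - p‖ ≤ 4 * rad (d i) (n i)) :=
        fun h => hx ⟨not_lt.1 h1, h⟩
      rw [not_or] at h2
      have h3 : ∀ᶠ y in 𝓝 x, ev (d i) y = 0 := by
        by_cases h4 : tl (N i) x ≤ rho (d i)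
        · have h5 := not_and.1 h2.1 h4
          push Not at h5
          obtain ⟨j, hj1, hj2⟩ := h5
          have hc : Continuous (fun y : V => |y j - x0 i j|) :=
            ((cont_coord j).sub continuous_const).abs
          filter_upwards [hc.continuousAt.eventually (lt_mem_nhds hj2)] with y hy
          by_contra h
          exact absurd (ev_loc _ _ _ h hi.1 j hj1) (not_le.2 hy)
        · filter_upwards [(cont_tl (N i)).continuousAt.eventually (lt_mem_nhds (not_le.1 h4))]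
            with y hy
          by_contra h
          exact absurd (hN i y h) (not_le.2 hy)
      filter_upwards [h3, hcn.continuousAt.eventually (lt_mem_nhds (not_le.1 h2.2))] with y hy hy2
      have h6 : bcut (rad (d i) (n i)) (q i) y = 0 := by
        by_contra h
        have a := near_of_bcut hd h
        have b := norm_sub_thr hd p
        have c := hq i
        have e := norm_sub_le_norm_sub_add_norm_sub p (thr (rad (d i) (n i)) p)
          (qv (rad (d i) (n i)) (q i))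
        have g := norm_sub_le_norm_sub_add_norm_sub y (qv (rad (d i) (n i)) (q i)) p
        rw [norm_sub_rev (qv (rad (d i) (n i)) (q i)) p] at g
        linarith
      simp only [f, ev]
      rw [hy, h6]; ring
  · intro i j l _ _ _ hij hjl x hi hj hl
    have hrj := rho_pos (d j)
    have : ‖x - p‖ ≤ 2 * rho (d j) := by
      rcases hj.2 with h | h
      · refine norm_le_of _ (by positivity) (fun t => ?_)
        rw [ZeroAtInftyContinuousMap.sub_apply]
        by_cases ht : t < M j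
        · linarith [hjl.2 x hl t ht]
        · have a := (abs_le_tl x ((hM1 j).trans (not_lt.1 ht))).trans h.1
          have b := (abs_le_tl p (not_lt.1 ht)).trans (hM2 j)
          have c := abs_sub (x t) (p t)
          linarith
      · linarith [hn1 j]
    linarith [hi.1, hij.1]

theorem small_null (hμ : WUC μ C) (c : ℕ → Code) (k : ℕ) (hk : ∀ᶠ i in UU, wt (c i) ≤ k)
    (hr : Tendsto (fun i => rho (c i)) UU (𝓝 0)) :
    Tendsto (fun i => pr (μ i) (ev (c i))) UU (𝓝 0) := by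
  classical
  have hN : ∀ i, ∃ N, ∀ x ∈ insert 0 (μ i).support, tl N x ≤ 3 / 4 * rho (c i) :=
    fun i => exists_tl_le_finset _ (by have := rho_pos (c i); positivity)
  choose N hN using hN
  let d : ℕ → Code := fun i => .tail (c i) (N i) 0
  have hd : ∀ i, pr (μ i) (ev (d i)) = pr (μ i) (ev (c i)) := fun i => by
    have key : ∀ x ∈ insert 0 (μ i).support, ev (d i) x = ev (c i) x := fun x hx => by
      simp only [d, ev]
      rw [tcut_eq_one (rho_pos _) (by simpa using hN i x hx), mul_one]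
    exact pr_congr _ (key 0 (mem_insert_self _ _)) (fun x hx => key x (mem_insert_of_mem hx))
  have hk' : ∀ᶠ i in UU, wt (d i) ≤ k * 5 := hk.mono (fun i hi => Nat.mul_le_mul_right _ hi)
  simp only [← hd]
  rcases UU_em (fun i => ∀ᶠ l in UU, ∀ x, ev (d i) x = 0 ∨ ev (d l) x = 0) with h | h
  · exact disj_null hμ d _ hk' h
  · by_contra hh
    obtain ⟨c0, hc0, hh⟩ := UU_not_tendsto hh
    have h1 : ∀ᶠ i in UU, ∃ x, ev (d i) x ≠ 0 := hh.mono (fun i hi => exists_ne_of_pr (μ := μ i)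
      (fun h0 => by rw [h0, abs_zero] at hi; linarith))
    obtain ⟨x0, hx0⟩ := h1.choice
    have h2 : ∀ i x, ev (d i) x ≠ 0 → tl (N i) x ≤ rho (d i) := fun i x hx => by
      have := tl_lt_of_tcut (rho_pos _) (right_ne_zero_of_mul hx)
      rw [pow_zero, one_mul] at this
      exact this.le
    obtain ⟨p, hp⟩ := exists_limit d N x0 hr h2 hx0 (h.mono (fun i hi => by
      refine ((UU_em _).resolve_left hi).mono (fun l hl => ?_)
      push Not at hl
      exact hl))
    exact flat_false hμ d N x0 _ hc0 hr h2 hx0 hk' hh p hp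

theorem all_null (hμ : WUC μ C) (c : ℕ → Code) (k : ℕ) (hk : ∀ᶠ i in UU, wt (c i) ≤ k) :
    Tendsto (fun i => pr (μ i) (ev (c i))) UU (𝓝 0) := by
  by_cases hr : Tendsto (fun i => rho (c i)) UU (𝓝 0)
  · exact small_null hμ c k hk hr
  · obtain ⟨r0, hr0, h⟩ := UU_not_tendsto hr
    exact large_null hμ hr0 k c hk (h.mono (fun i hi => by
      rwa [abs_of_pos (rho_pos _)] at hi)) []

theorem unif_null (hμ : WUC μ C) (k : ℕ) {t : ℝ} (ht : 0 < t) :
    ∀ᶠ i in UU, ∀ c, wt c ≤ k → |pr (μ i) (ev c)| ≤ t := by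
  refine (UU_em _).resolve_right (fun h => ?_)
  have h1 : ∀ᶠ i in UU, ∃ c, wt c ≤ k ∧ t < |pr (μ i) (ev c)| := h.mono (fun i hi => by
    push Not at hi; exact hi)
  obtain ⟨c, hc⟩ := h1.choice
  have h2 := (all_null hμ c k (hc.mono (fun i hi => hi.1))).abs
  rw [abs_zero] at h2
  obtain ⟨i, hi1, hi2⟩ := (hc.and (h2.eventually (gt_mem_nhds ht))).exists
  linarith [hi1.2]

end Vale.Agent.P124
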