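import Vale.Agent.P124.Absorb

/-! A countable family of localized Lipschitz test functions on `V`. -/

namespace Vale.Agent.P124

open Filter Topology Finset

/-- Soft thresholding of a real number. -/
noncomputable def st (d a : ℝ) : ℝ := a - max (-d) (min d a)

lemma st_lip (d a b : ℝ) (hd : 0 ≤ d) : |st d a - st d b| ≤ |a - b| := by
  unfold st
  rcases le_total a b with h | h
  · rw [abs_of_nonpos (by linarith : a - b ≤ 0), abs_le]
    constructor <;> simp only [max_def, min_def] <;> split_ifs <;> linarith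
  · rw [abs_of_nonneg (by linarith : 0 ≤ a - b), abs_le]
    constructor <;> simp only [max_def, min_def] <;> split_ifs <;> linarith

lemma abs_sub_st (d a : ℝ) (hd : 0 ≤ d) : |a - st d a| ≤ d := by
  unfold st
  rw [abs_le]
  constructor <;> simp only [max_def, min_def] <;> split_ifs <;> linarith

lemma st_eq_zero {d a : ℝ} (h : |a| ≤ d) : st d a = 0 := by
  unfold st
  rw [abs_le] at h
  rw [min_eq_right h.2, max_eq_right h.1, sub_self]

lemma abs_st_le (d a : ℝ) (hd : 0 ≤ d) : |st d a| ≤ |a| := by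
  have := st_lip d a 0 hd
  rwa [st_eq_zero (a := 0) (by simpa using hd), sub_zero, sub_zero] at this

/-- Soft thresholding of a sequence. -/
noncomputable def thr (d : ℝ) (x : V) : V :=
  mkV (fun k => st |d| (x k)) (tendsto_of_abs_le (by simpa using (V_tendsto x).abs)
    (fun k => abs_st_le _ _ (abs_nonneg d)))

lemma thr_apply {d : ℝ} (hd : 0 < d) (x : V) (k : ℕ) : thr d x k = st d (x k) := by
  simp [thr, abs_of_pos hd]

lemma thr_lip (d : ℝ) (x y : V) : ‖thr d x - thr d y‖ ≤ ‖x - y‖ :=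
  norm_le_of _ (norm_nonneg _) (fun k => (st_lip _ _ _ (abs_nonneg d)).trans
    (abs_sub_le_norm x y k))

lemma norm_sub_thr {d : ℝ} (hd : 0 < d) (x : V) : ‖x - thr d x‖ ≤ d :=
  norm_le_of _ hd.le (fun k => by
    rw [ZeroAtInftyContinuousMap.sub_apply, thr_apply hd]; exact abs_sub_st _ _ hd.le)

/-- A lattice point. -/
noncomputable def qv (d : ℝ) (q : ℕ →₀ ℤ) : V :=
  mkV (fun k => d * q k) (by
    apply tendsto_const_nhds.congr'
    have : ∀ᶠ k in atTop, k ∉ q.support := by
      rw [← Nat.cofinite_eq_atTop]; exact q.support.eventually_cofinite_notMem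
    filter_upwards [this] with k hk
    rw [Finsupp.notMem_support_iff.1 hk]; simp)

lemma qv_apply (d : ℝ) (q : ℕ →₀ ℤ) (k : ℕ) : qv d q k = d * q k := rfl

lemma exists_qv {d : ℝ} (hd : 0 < d) (p : V) : ∃ q : ℕ →₀ ℤ, ‖thr d p - qv d q‖ ≤ d / 2 := by
  obtain ⟨N, hN⟩ := exists_tl_le p hd
  refine ⟨Finsupp.onFinset (range N) (fun k => round (st d (p k) / d)) (fun k hk => ?_), ?_⟩
  · by_contra h
    apply hk
    rw [st_eq_zero ((abs_le_tl p (by simpa using h)).trans hN)]
    simp
  · refine norm_le_of _ (by positivity) (fun k => ?_)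
    rw [ZeroAtInftyContinuousMap.sub_apply, thr_apply hd, qv_apply, Finsupp.onFinset_apply]
    have := abs_sub_round (st d (p k) / d)
    have e : st d (p k) - d * (round (st d (p k) / d) : ℤ)
        = d * (st d (p k) / d - (round (st d (p k) / d) : ℤ)) := by field_simp
    rw [e, abs_mul, abs_of_pos hd]
    nlinarith

/-- Codes of test functions. -/
inductive Code : Type
  | basic (k : ℕ) : Code
  | tail (c : Code) (N s : ℕ) : Code
  | ball (c : Code) (n : ℕ) (q : ℕ →₀ ℤ) : Code

/-- An injective numbering of the codes. -/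
noncomputable def enc : Code → ℕ
  | .basic k => Nat.pair 0 k
  | .tail c N s => Nat.pair 1 (Nat.pair (enc c) (Nat.pair N s))
  | .ball c n q => Nat.pair 2 (Nat.pair (enc c) (Nat.pair n (Encodable.encode q)))

lemma enc_inj (c : Code) : ∀ c' : Code, enc c = enc c' → c = c' := by
  induction c with
  | basic k =>
    intro c' h
    cases c' with
    | basic k' => simp only [enc, Nat.pair_eq_pair, true_and] at h; rw [h]
    | tail _ _ _ => simp only [enc, Nat.pair_eq_pair] at h; omega
    | ball _ _ _ => simp only [enc, Nat.pair_eq_pair] at h; omega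
  | tail c N s ih =>
    intro c' h
    cases c' with
    | basic k' => simp only [enc, Nat.pair_eq_pair] at h; omega
    | tail c' N' s' =>
      simp only [enc, Nat.pair_eq_pair, true_and] at h
      rw [ih c' h.1, h.2.1, h.2.2]
    | ball _ _ _ => simp only [enc, Nat.pair_eq_pair] at h; omega
  | ball c n q ih =>
    intro c' h
    cases c' with
    | basic k' => simp only [enc, Nat.pair_eq_pair] at h; omega
    | tail _ _ _ => simp only [enc, Nat.pair_eq_pair] at h; omega
    | ball c' n' q' =>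
      simp only [enc, Nat.pair_eq_pair, true_and, Encodable.encode_inj] at h
      rw [ih c' h.1, h.2.1, h.2.2]

/-- The radius of a ball test. -/
noncomputable def rad (c : Code) (n : ℕ) : ℝ := 1 / ((n : ℝ) + enc c + 1)

lemma rad_pos (c : Code) (n : ℕ) : 0 < rad c n := by unfold rad; positivity

/-- The scale of a test. -/
noncomputable def rho : Code → ℝ
  | .basic k => scl (cell k).1
  | .tail c _ _ => rho c
  | .ball c n _ => rad c n

/-- The weight of a test. -/
def wt : Code → ℕ
  | .basic _ => 3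
  | .tail c _ s => wt c * (1 + 4 * 2 ^ s)
  | .ball c _ _ => wt c * 9

/-- The tail cutoff. -/
noncomputable def tcut (r : ℝ) (N s : ℕ) (x : V) : ℝ := kap (2 ^ s * tl N x / r)

/-- The ball cutoff. -/
noncomputable def bcut (d : ℝ) (q : ℕ →₀ ℤ) (x : V) : ℝ := kap (‖thr d x - qv d q‖ / d)

/-- The test function of a code. -/
noncomputable def ev : Code → V → ℝ
  | .basic k, x => Th x k
  | .tail c N s, x => ev c x * tcut (rho c) N s x
  | .ball c n q, x => (ev c x - ev c (qv (rad c n) q)) * bcut (rad c n) q x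

lemma rho_pos : ∀ c : Code, 0 < rho c
  | .basic _ => scl_pos _
  | .tail c _ _ => rho_pos c
  | .ball c n _ => rad_pos c n

lemma wt_pos : ∀ c : Code, 0 < wt c
  | .basic _ => by simp [wt]
  | .tail c _ _ => Nat.mul_pos (wt_pos c) (by positivity)
  | .ball c _ _ => Nat.mul_pos (wt_pos c) (by norm_num)

lemma tcut_lip {r : ℝ} (hr : 0 < r) (N s : ℕ) (x y : V) :
    |tcut r N s x - tcut r N s y| ≤ 4 * 2 ^ s / r * ‖x - y‖ := by
  refine (kap_lip _ _).trans ?_
  rw [← sub_div, ← mul_sub, abs_div, abs_mul, abs_of_pos hr, abs_of_pos (by positivity : (0:ℝ) < 2 ^ s)]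
  have := tl_lip N x y
  calc 4 * (2 ^ s * |tl N x - tl N y| / r) = 4 * 2 ^ s / r * |tl N x - tl N y| := by ring
    _ ≤ _ := mul_le_mul_of_nonneg_left this (by positivity)

lemma tl_lt_of_tcut {r : ℝ} (hr : 0 < r) {N s : ℕ} {x : V} (h : tcut r N s x ≠ 0) :
    2 ^ s * tl N x < r := by
  have := lt_of_kap h
  rwa [div_lt_one hr] at this

lemma tcut_eq_one {r : ℝ} (hr : 0 < r) {N s : ℕ} {x : V} (h : 2 ^ s * tl N x ≤ 3 / 4 * r) :
    tcut r N s x = 1 :=
  kap_eq_one (by rwa [div_le_iff₀ hr])

lemma bcut_lip {d : ℝ} (hd : 0 < d) (q : ℕ →₀ ℤ) (x y : V) :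
    |bcut d q x - bcut d q y| ≤ 4 / d * ‖x - y‖ := by
  refine (kap_lip _ _).trans ?_
  rw [← sub_div, abs_div, abs_of_pos hd]
  have h1 := abs_norm_sub_norm_le (thr d x - qv d q) (thr d y - qv d q)
  rw [sub_sub_sub_cancel_right] at h1
  have := h1.trans (thr_lip d x y)
  calc 4 * (|‖thr d x - qv d q‖ - ‖thr d y - qv d q‖| / d)
      = 4 / d * |‖thr d x - qv d q‖ - ‖thr d y - qv d q‖| := by ring
    _ ≤ _ := mul_le_mul_of_nonneg_left this (by positivity)

lemma lt_of_bcut {d : ℝ} (hd : 0 < d) {q : ℕ →₀ ℤ} {x : V} (h : bcut d q x ≠ 0) :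
    ‖thr d x - qv d q‖ < d := by
  have := lt_of_kap h
  rwa [div_lt_one hd] at this

lemma near_of_bcut {d : ℝ} (hd : 0 < d) {q : ℕ →₀ ℤ} {x : V} (h : bcut d q x ≠ 0) :
    ‖x - qv d q‖ ≤ 2 * d := by
  have a := lt_of_bcut hd h
  have b := norm_sub_thr hd x
  have c := norm_sub_le_norm_sub_add_norm_sub x (thr d x) (qv d q)
  linarith

lemma bcut_eq_one {d : ℝ} (hd : 0 < d) {q : ℕ →₀ ℤ} {x : V}
    (h : ‖thr d x - qv d q‖ ≤ 3 / 4 * d) : bcut d q x = 1 :=
  kap_eq_one (by rwa [div_le_iff₀ hd])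

lemma mul_cut_lip {g k : V → ℝ} {L M K : ℝ} (hM : 0 ≤ M)
    (hg : ∀ x y, |g x - g y| ≤ L * ‖x - y‖) (hk : ∀ x y, |k x - k y| ≤ K * ‖x - y‖)
    (hk1 : ∀ x, |k x| ≤ 1) (hb : ∀ x, k x ≠ 0 → |g x| ≤ M) (x y : V) :
    |g x * k x - g y * k y| ≤ (L + M * K) * ‖x - y‖ := by
  have key : ∀ x y, k x ≠ 0 → |g x * k x - g y * k y| ≤ (L + M * K) * ‖x - y‖ := by
    intro x y hx
    have e : g x * k x - g y * k y = g x * (k x - k y) + (g x - g y) * k y := by ring
    rw [e]
    refine (abs_add_le _ _).trans ?_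
    rw [abs_mul, abs_mul]
    have a : |g x| * |k x - k y| ≤ M * (K * ‖x - y‖) :=
      mul_le_mul (hb x hx) (hk x y) (abs_nonneg _) hM
    have b : |g x - g y| * |k y| ≤ L * ‖x - y‖ :=
      (mul_le_of_le_one_right (abs_nonneg _) (hk1 y)).trans (hg x y)
    linarith
  by_cases hx : k x = 0
  · by_cases hy : k y = 0
    · rw [hx, hy]
      simp only [mul_zero, sub_zero, abs_zero]
      have a := (abs_nonneg _).trans (hg x y)
      have b := mul_nonneg hM ((abs_nonneg _).trans (hk x y))
      linarith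
    · rw [abs_sub_comm, norm_sub_rev]; exact key y x hy
  · exact key x y hx

lemma be_ne_of_Th {x : V} {k : ℕ} (h : Th x k ≠ 0) :
    be x (Rv x (room k)) (room k) (cell k) ≠ 0 := left_ne_zero_of_mul h

lemma Rv_lt_of_Th {x : V} {k : ℕ} (h : Th x k ≠ 0) : Rv x (room k) < scl (cell k).1 :=
  lt_scl (Rv_pos _ _) (abs_lt.1 (abs_lt_of_psi (left_ne_zero_of_mul (be_ne_of_Th h)))).2

lemma lt_Rv_of_Th {x : V} {k : ℕ} (h : Th x k ≠ 0) :
    Real.exp (-4 / ep) * scl (cell k).1 < Rv x (room k) :=
  scl_lt (Rv_pos _ _) (abs_lt.1 (abs_lt_of_psi (left_ne_zero_of_mul (be_ne_of_Th h)))).1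

lemma ev_inv : ∀ c : Code, (∀ x y, |ev c x - ev c y| ≤ wt c * ‖x - y‖) ∧
    ∀ x, |ev c x| ≤ wt c * rho c
  | .basic k => by
    refine ⟨fun x y => by simpa [ev, wt] using Th_lip_apply x y k, fun x => ?_⟩
    simp only [ev, wt, rho]
    have hs := scl_pos (cell k).1
    by_cases h : Th x k = 0
    · rw [h, abs_zero]; positivity
    · have a := Rv_lt_of_Th h
      have b := (abs_spr_le x (Rv x) _ k).trans (abs_amp_le_Rv x (room k))
      rw [Th_apply]
      push_cast
      linarith
  | .tail c N s => by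
    obtain ⟨h1, h2⟩ := ev_inv c
    have hr := rho_pos c
    constructor
    · intro x y
      have := mul_cut_lip (M := wt c * rho c) (by positivity) h1 (tcut_lip hr N s)
        (fun x => abs_kap_le _) (fun x _ => h2 x) x y
      refine this.trans (le_of_eq ?_)
      simp only [wt]; push_cast; field_simp
    · intro x
      simp only [ev, wt, rho]
      rw [abs_mul]
      refine (mul_le_of_le_one_right (abs_nonneg _) (abs_kap_le _)).trans ((h2 x).trans ?_)
      refine mul_le_mul_of_nonneg_right ?_ hr.le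
      exact_mod_cast Nat.le_mul_of_pos_right _ (by positivity)
  | .ball c n q => by
    obtain ⟨h1, h2⟩ := ev_inv c
    have hr := rad_pos c n
    have hb : ∀ x, bcut (rad c n) q x ≠ 0 →
        |ev c x - ev c (qv (rad c n) q)| ≤ wt c * (2 * rad c n) := fun x hx =>
      (h1 _ _).trans (mul_le_mul_of_nonneg_left (near_of_bcut hr hx) (by positivity))
    constructor
    · intro x y
      have := mul_cut_lip (g := fun x => ev c x - ev c (qv (rad c n) q)) (L := wt c)
        (M := wt c * (2 * rad c n)) (by positivity)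
        (fun x y => by rw [sub_sub_sub_cancel_right]; exact h1 x y) (bcut_lip hr q)
        (fun x => abs_kap_le _) hb x y
      refine this.trans (le_of_eq ?_)
      simp only [wt]; push_cast; field_simp; ring
    · intro x
      simp only [ev, wt, rho]
      by_cases hx : bcut (rad c n) q x = 0
      · rw [hx, mul_zero, abs_zero]; positivity
      · rw [abs_mul]
        refine (mul_le_of_le_one_right (abs_nonneg _) (abs_kap_le _)).trans ((hb x hx).trans ?_)
        push_cast
        have : 0 ≤ (wt c : ℝ) * rad c n := by positivity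
        linarith

lemma ev_lip (c : Code) (x y : V) : |ev c x - ev c y| ≤ wt c * ‖x - y‖ := (ev_inv c).1 x y

lemma ev_bdd (c : Code) (x : V) : |ev c x| ≤ wt c * rho c := (ev_inv c).2 x

lemma Th_diam {x y : V} {k : ℕ} (hx : Th x k ≠ 0) (hy : Th y k ≠ 0) {i : ℕ} (hi : i < room k) :
    |x i - y i| ≤ 800 * 2 ^ i * scl (cell k).1 := by
  have a := bumpN_diam _ _ _ _ (right_ne_zero_of_mul (be_ne_of_Th hx))
    (right_ne_zero_of_mul (be_ne_of_Th hy)) i hi
  have hs := scl_pos (cell k).1
  have he := ep_pos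
  unfold loc at a
  rw [← sub_div, ← mul_sub, abs_div, abs_mul, abs_of_pos he,
    abs_of_pos (by positivity : 0 < scl (cell k).1 * 2 ^ i), div_le_iff₀ (by positivity)] at a
  unfold ep at a
  linarith

lemma ev_loc : ∀ (c : Code) (x y : V), ev c x ≠ 0 → ev c y ≠ 0 → ∀ i : ℕ,
    ((i : ℝ) + 1) * rho c ≤ 1 → |x i - y i| ≤ 800 * 2 ^ i * rho c
  | .basic k, x, y, hx, hy, i, hi => by
    refine Th_diam hx hy ?_
    have a := Rv_lt_of_Th hx
    have b := tl_nonneg (room k / 2) x
    have c : 1 / ((room k : ℝ) + 1) < scl (cell k).1 := by unfold Rv at a; linarith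
    rw [div_lt_iff₀ (by positivity)] at c
    simp only [rho] at hi
    have hs := scl_pos (cell k).1
    have : (i : ℝ) + 1 < room k + 1 := by
      by_contra h
      push Not at h
      nlinarith
    exact_mod_cast (by linarith : (i : ℝ) < room k)
  | .tail c _ _, x, y, hx, hy, i, hi =>
    ev_loc c x y (left_ne_zero_of_mul hx) (left_ne_zero_of_mul hy) i hi
  | .ball c n q, x, y, hx, hy, i, _ => by
    have hr := rad_pos c n
    have a := near_of_bcut hr (right_ne_zero_of_mul hx)
    have b := near_of_bcut hr (right_ne_zero_of_mul hy)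
    have d := norm_sub_le_norm_sub_add_norm_sub x (qv (rad c n) q) y
    rw [norm_sub_rev (qv (rad c n) q)] at d
    have e := abs_sub_le_norm x y i
    have f : (1 : ℝ) ≤ 2 ^ i := one_le_pow₀ one_le_two
    simp only [rho]
    nlinarith

end Vale.Agent.P124
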