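import Vale.Agent.P124.Tests

/-! Pairing of molecules with test functions and the basic disjointness arguments. -/

namespace Vale.Agent.P124

open Filter Topology Finset

/-- The fixed free ultrafilter. -/
noncomputable abbrev UU : Filter ℕ := (hyperfilter ℕ : Filter ℕ)

lemma UU_le : UU ≤ atTop := Nat.hyperfilter_le_atTop

lemma UU_em (p : ℕ → Prop) : (∀ᶠ i in UU, p i) ∨ ∀ᶠ i in UU, ¬p i := (hyperfilter ℕ).em p

lemma UU_nat (a : ℕ → ℕ) : (∃ n, ∀ᶠ i in UU, a i = n) ∨ Tendsto a UU atTop := by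
  by_cases h : ∃ n, ∀ᶠ i in UU, a i = n
  · exact Or.inl h
  · right
    rw [tendsto_atTop]
    intro b
    have : ∀ n ∈ range b, ∀ᶠ i in UU, ¬a i = n := fun n _ =>
      (UU_em _).resolve_left (fun hn => h ⟨n, hn⟩)
    filter_upwards [(eventually_all_finset _).2 this] with i hi
    by_contra hb
    exact hi (a i) (mem_range.2 (by omega)) rfl

lemma UU_nat_bdd (a : ℕ → ℕ) (b : ℕ) (h : ∀ᶠ i in UU, a i ≤ b) : ∃ n, ∀ᶠ i in UU, a i = n := by
  rcases UU_nat a with h1 | h1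
  · exact h1
  · obtain ⟨i, hi⟩ := (h.and (tendsto_atTop.1 h1 (b + 1))).exists
    omega

lemma UU_not_tendsto {a : ℕ → ℝ} (h : ¬Tendsto a UU (𝓝 0)) :
    ∃ c > 0, ∀ᶠ i in UU, c ≤ |a i| := by
  rw [Metric.tendsto_nhds] at h
  push Not at h
  obtain ⟨c, hc, h⟩ := h
  refine ⟨c, hc, ?_⟩
  simpa [Real.dist_eq] using h

lemma UU_lim (a : ℕ → ℝ) (B : ℝ) (h : ∀ᶠ i in UU, |a i| ≤ B) : ∃ p, Tendsto a UU (𝓝 p) := by
  obtain ⟨p, -, hp⟩ := (isCompact_Icc (a := -B) (b := B)).ultrafilter_le_nhds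
    ((hyperfilter ℕ).map a) (by
      rw [le_principal_iff]
      exact h.mono (fun i hi => abs_le.1 hi))
  exact ⟨p, hp⟩

lemma exists_chain (P : ℕ → Prop) (Rel : ℕ → ℕ → Prop) (hP : ∀ᶠ i in UU, P i)
    (hR : ∀ᶠ i in UU, ∀ᶠ l in UU, Rel i l) (m : ℕ) :
    ∃ A : Finset ℕ, A.card = m ∧ (∀ i ∈ A, P i ∧ ∀ᶠ l in UU, Rel i l) ∧
      ∀ i ∈ A, ∀ l ∈ A, i < l → Rel i l := by
  induction m with
  | zero => exact ⟨∅, rfl, by simp, by simp⟩
  | succ m ih =>
    obtain ⟨A, h1, h2, h3⟩ := ih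
    have h4 : ∀ᶠ l in UU, ∀ i ∈ A, Rel i l ∧ i < l :=
      (eventually_all_finset _).2 (fun i hi => (h2 i hi).2.and (UU_le (eventually_gt_atTop i)))
    obtain ⟨l, hl1, hl2, hl3⟩ := (hP.and (hR.and h4)).exists
    have hl : l ∉ A := fun h => lt_irrefl _ (hl3 l h).2
    refine ⟨insert l A, by rw [card_insert_of_notMem hl, h1], ?_, ?_⟩
    · intro i hi
      rcases mem_insert.1 hi with rfl | hi
      · exact ⟨hl1, hl2⟩
      · exact h2 i hi
    · intro i hi j hj hij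
      rcases mem_insert.1 hi with rfl | hi'
      · rcases mem_insert.1 hj with rfl | hj'
        · exact absurd hij (lt_irrefl _)
        · exact absurd hij (not_lt.2 (hl3 j hj').2.le)
      · rcases mem_insert.1 hj with rfl | hj'
        · exact (hl3 i hi').1
        · exact h3 i hi' j hj' hij

lemma exists_signs (B : ℕ → ℕ → ℝ) (A : Finset ℕ) :
    ∃ e : ℕ → ℝ, (∀ i, |e i| = 1) ∧ ∑ i ∈ A, B i i ≤ ∑ i ∈ A, ∑ j ∈ A, e i * e j * B i j := by
  induction A using Finset.induction_on with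
  | empty => exact ⟨fun _ => 1, by simp, by simp⟩
  | insert a A ha ih =>
    obtain ⟨e, he, h⟩ := ih
    obtain ⟨s, hs1, hs2, hs3⟩ : ∃ s : ℝ, |s| = 1 ∧ s * s = 1 ∧
        0 ≤ s * (∑ j ∈ A, e j * B a j + ∑ i ∈ A, e i * B i a) := by
      rcases le_total 0 (∑ j ∈ A, e j * B a j + ∑ i ∈ A, e i * B i a) with h | h
      · exact ⟨1, by simp, by simp, by simpa using h⟩
      · exact ⟨-1, by simp, by simp, by linarith⟩
    refine ⟨Function.update e a s, fun i => ?_, ?_⟩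
    · by_cases hi : i = a
      · subst hi; simpa using hs1
      · rw [Function.update_of_ne hi]; exact he i
    · have hu : ∀ i ∈ A, Function.update e a s i = e i := fun i hi =>
        Function.update_of_ne (fun h : i = a => ha (h ▸ hi)) _ _
      rw [sum_insert ha, sum_insert ha, sum_insert ha, Function.update_self]
      have e1 : ∑ j ∈ A, s * Function.update e a s j * B a j = s * ∑ j ∈ A, e j * B a j := by
        rw [mul_sum]; exact sum_congr rfl (fun j hj => by rw [hu j hj]; ring)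
      have e2 : ∑ i ∈ A, ∑ j ∈ insert a A, Function.update e a s i * Function.update e a s j * B i j
          = s * ∑ i ∈ A, e i * B i a + ∑ i ∈ A, ∑ j ∈ A, e i * e j * B i j := by
        rw [mul_sum, ← sum_add_distrib]
        refine sum_congr rfl (fun i hi => ?_)
        rw [sum_insert ha, Function.update_self, hu i hi]
        congr 1
        · ring
        · exact sum_congr rfl (fun j hj => by rw [hu j hj])
      rw [e1, e2, hs2]
      linarith

/-- Pairing of a molecule with a function. -/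
noncomputable def pr (μ : V →₀ ℝ) (g : V → ℝ) : ℝ :=
  Finsupp.linearCombination ℝ (fun x => g x - g 0) μ

lemma pr_eq (μ : V →₀ ℝ) (g : V → ℝ) : pr μ g = ∑ x ∈ μ.support, μ x * (g x - g 0) := rfl

lemma pr_sum_left (A : Finset ℕ) (a : ℕ → ℝ) (μ : ℕ → V →₀ ℝ) (g : V → ℝ) :
    pr (∑ i ∈ A, a i • μ i) g = ∑ i ∈ A, a i * pr (μ i) g := by
  simp only [pr, map_sum, map_smul, smul_eq_mul]

lemma pr_sum_right (ν : V →₀ ℝ) (A : Finset ℕ) (a : ℕ → ℝ) (f : ℕ → V → ℝ) :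
    pr ν (fun x => ∑ i ∈ A, a i * f i x) = ∑ i ∈ A, a i * pr ν (f i) := by
  simp only [pr_eq, mul_sum]
  rw [sum_comm]
  refine sum_congr rfl (fun x _ => ?_)
  rw [← sum_sub_distrib, mul_sum]
  exact sum_congr rfl (fun i _ => by ring)

lemma pr_sub_mul (ν : V →₀ ℝ) (f g : V → ℝ) (b : ℝ) :
    pr ν (fun x => f x - b * g x) = pr ν f - b * pr ν g := by
  simp only [pr_eq, mul_sum]
  rw [← sum_sub_distrib]
  exact sum_congr rfl (fun i _ => by ring)

lemma pr_mul (ν : V →₀ ℝ) (g : V → ℝ) (b : ℝ) : pr ν (fun x => b * g x) = b * pr ν g := by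
  simp only [pr_eq, mul_sum]
  exact sum_congr rfl (fun i _ => by ring)

lemma pr_congr (μ : V →₀ ℝ) {f g : V → ℝ} (h0 : f 0 = g 0) (h : ∀ x ∈ μ.support, f x = g x) :
    pr μ f = pr μ g := by
  simp only [pr_eq]
  exact sum_congr rfl (fun x hx => by rw [h0, h x hx])

lemma abs_pr_le (μ : V →₀ ℝ) {g : V → ℝ} {M : ℝ} (h : ∀ x, |g x| ≤ M) :
    |pr μ g| ≤ (∑ x ∈ μ.support, |μ x|) * (2 * M) := by
  rw [pr_eq, sum_mul]
  refine (abs_sum_le_sum_abs _ _).trans (sum_le_sum (fun x _ => ?_))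
  rw [abs_mul]
  refine mul_le_mul_of_nonneg_left ?_ (abs_nonneg _)
  linarith [abs_sub (g x) (g 0), h x, h 0]

lemma exists_ne_of_pr {μ : V →₀ ℝ} {g : V → ℝ} (h : pr μ g ≠ 0) : ∃ x, g x ≠ 0 := by
  by_contra h2
  push Not at h2
  apply h
  simp [pr_eq, h2]

/-- Domination by the tests of weight at most `k`. -/
def Dm (k : ℕ) (B : ℝ) (g : V → ℝ) : Prop :=
  ∀ (ν : V →₀ ℝ) (b : ℝ), (∀ c, wt c ≤ k → |pr ν (ev c)| ≤ b) → |pr ν g| ≤ B * b

/-- The functions of level `k`. -/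
def GK (k : ℕ) (g : V → ℝ) : Prop :=
  (∀ x y, |g x - g y| ≤ (1 / 2) ^ k * ‖x - y‖) ∧ Dm k (4 ^ k) g

/-- Uniform bound for the sums of a sequence of molecules. -/
def WUC (μ : ℕ → V →₀ ℝ) (C : ℝ) : Prop :=
  ∀ k g, GK k g → ∀ (A : Finset ℕ) (e : ℕ → ℝ), (∀ i, |e i| ≤ 1) →
    |pr (∑ i ∈ A, e i • μ i) g| ≤ C

lemma Dm_two {k : ℕ} {c c' : Code} (hc : wt c ≤ k) (hc' : wt c' ≤ k) {b : ℝ} (hb : |b| ≤ 1) :
    Dm k 2 (fun x => ev c x - b * ev c' x) := by
  intro ν t ht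
  rw [pr_sub_mul]
  have h1 := ht c hc
  have h2 := ht c' hc'
  have h3 := abs_sub (pr ν (ev c)) (b * pr ν (ev c'))
  have h4 : |b * pr ν (ev c')| ≤ |pr ν (ev c')| := by
    rw [abs_mul]; exact mul_le_of_le_one_left (abs_nonneg _) hb
  linarith

lemma tool {μ : ℕ → V →₀ ℝ} {C : ℝ} (hμ : WUC μ C) (P : ℕ → Prop) (Rel : ℕ → ℕ → Prop)
    (hP : ∀ᶠ i in UU, P i) (hR : ∀ᶠ i in UU, ∀ᶠ l in UU, Rel i l) (f : ℕ → V → ℝ)
    {c B K : ℝ} {k0 : ℕ} (hc : 0 < c) (hK : 0 < K)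
    (h1 : ∀ i, P i → c ≤ |pr (μ i) (f i)|) (h2 : ∀ i, P i → Dm k0 B (f i))
    (h3 : ∀ A : Finset ℕ, (∀ i ∈ A, P i) → (∀ i ∈ A, ∀ l ∈ A, i < l → Rel i l) →
      ∀ e : ℕ → ℝ, (∀ i, |e i| ≤ 1) → ∀ x y,
        |∑ i ∈ A, e i * f i x - ∑ i ∈ A, e i * f i y| ≤ K * ‖x - y‖) : False := by
  obtain ⟨k, hk⟩ : ∃ k : ℕ, (k0 ≤ k ∧ 3 ≤ k) ∧ B / K < 2 ^ k ∧ C * K / c < 2 ^ k := by
    have t := tendsto_pow_atTop_atTop_of_one_lt (one_lt_two : (1 : ℝ) < 2)
    exact (((eventually_ge_atTop k0).and (eventually_ge_atTop 3)).and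
      ((t.eventually_gt_atTop _).and (t.eventually_gt_atTop _))).exists
  obtain ⟨⟨hk0, hk3⟩, hkB, hkC⟩ := hk
  obtain ⟨A, hA1, hA2, hA3⟩ := exists_chain P Rel hP hR (4 ^ k)
  let s : ℕ → ℝ := fun i => if 0 ≤ pr (μ i) (f i) then 1 else -1
  have hs1 : ∀ i, |s i| = 1 := fun i => by simp only [s]; split_ifs <;> simp
  have hs2 : ∀ i, s i * pr (μ i) (f i) = |pr (μ i) (f i)| := fun i => by
    simp only [s]; split_ifs with h
    · rw [abs_of_nonneg h, one_mul]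
    · rw [abs_of_neg (not_le.1 h)]; ring
  obtain ⟨e, he, hsum⟩ := exists_signs (fun i j => s i * pr (μ i) (f j)) A
  have h2k : (0 : ℝ) < 2 ^ k := by positivity
  have hpos : 0 < K * 2 ^ k := by positivity
  have h4 : (4 : ℝ) ^ k = 2 ^ k * 2 ^ k := by rw [← mul_pow]; norm_num
  have hG : GK k (fun x => (K * 2 ^ k)⁻¹ * ∑ i ∈ A, e i * f i x) := by
    constructor
    · intro x y
      have := h3 A (fun i hi => (hA2 i hi).1) hA3 e (fun i => (he i).le) x y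
      rw [← mul_sub, abs_mul, abs_of_pos (inv_pos.2 hpos), inv_mul_le_iff₀ hpos]
      refine this.trans (le_of_eq ?_)
      rw [one_div, inv_pow]; field_simp
    · intro ν b hb
      have hb0 : 0 ≤ b := (abs_nonneg _).trans (hb (.basic 0) hk3)
      rw [pr_mul, pr_sum_right, abs_mul, abs_of_pos (inv_pos.2 hpos), inv_mul_le_iff₀ hpos]
      refine (abs_sum_le_sum_abs _ _).trans ?_
      have : ∀ i ∈ A, |e i * pr ν (f i)| ≤ B * b := fun i hi => by
        rw [abs_mul, he i, one_mul]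
        exact h2 i (hA2 i hi).1 ν b (fun c hc => hb c (hc.trans hk0))
      refine (sum_le_card_nsmul _ _ _ this).trans ?_
      rw [hA1, nsmul_eq_mul]
      push_cast
      rw [div_lt_iff₀ hK] at hkB
      have : B * b ≤ K * 2 ^ k * b := mul_le_mul_of_nonneg_right (by linarith) hb0
      calc (4 : ℝ) ^ k * (B * b) ≤ 4 ^ k * (K * 2 ^ k * b) :=
            mul_le_mul_of_nonneg_left this (by positivity)
        _ = _ := by ring
  have hW := hμ k _ hG A (fun i => e i * s i) (fun i => by rw [abs_mul, he, hs1]; norm_num)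
  rw [pr_sum_left] at hW
  simp only [pr_mul, pr_sum_right] at hW
  have e1 : ∑ i ∈ A, e i * s i * ((K * 2 ^ k)⁻¹ * ∑ j ∈ A, e j * pr (μ i) (f j))
      = (K * 2 ^ k)⁻¹ * ∑ i ∈ A, ∑ j ∈ A, e i * e j * (s i * pr (μ i) (f j)) := by
    rw [mul_sum]
    refine sum_congr rfl (fun i _ => ?_)
    rw [mul_sum, mul_sum, mul_sum]
    exact sum_congr rfl (fun j _ => by ring)
  have e2 : (4 : ℝ) ^ k * c ≤ ∑ i ∈ A, s i * pr (μ i) (f i) := by
    have := card_nsmul_le_sum A (fun i => s i * pr (μ i) (f i)) c (fun i hi => by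
      rw [hs2]; exact h1 i (hA2 i hi).1)
    rw [hA1, nsmul_eq_mul] at this
    exact_mod_cast this
  rw [e1] at hW
  have e3 := (le_abs_self _).trans hW
  rw [inv_mul_le_iff₀ hpos] at e3
  have e4 : 2 ^ k * (2 ^ k * c) ≤ 2 ^ k * (C * K) := by
    calc (2 : ℝ) ^ k * (2 ^ k * c) = 4 ^ k * c := by rw [h4]; ring
      _ ≤ K * 2 ^ k * C := e2.trans (hsum.trans e3)
      _ = _ := by ring
  have e5 := le_of_mul_le_mul_left e4 h2k
  rw [div_lt_iff₀ hc] at hkC
  linarith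

lemma sum_diff_le (A : Finset ℕ) (f : ℕ → V → ℝ) (e : ℕ → ℝ) (he : ∀ i, |e i| ≤ 1) {L : ℝ}
    (hL : 0 ≤ L) (x y : V) (hf : ∀ i ∈ A, |f i x - f i y| ≤ L * ‖x - y‖) (S : Finset ℕ)
    (hS : S.card ≤ 2) (h : ∀ i ∈ A, i ∉ S → f i x = f i y) :
    |∑ i ∈ A, e i * f i x - ∑ i ∈ A, e i * f i y| ≤ 2 * L * ‖x - y‖ := by
  rw [← sum_sub_distrib]
  have e1 : ∑ i ∈ A, (e i * f i x - e i * f i y)
      = ∑ i ∈ A ∩ S, (e i * f i x - e i * f i y) := by
    refine (sum_subset inter_subset_left (fun i hi hi2 => ?_)).symm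
    rw [h i hi (fun h => hi2 (mem_inter.2 ⟨hi, h⟩)), sub_self]
  rw [e1]
  refine (abs_sum_le_sum_abs _ _).trans ?_
  have : ∀ i ∈ A ∩ S, |e i * f i x - e i * f i y| ≤ L * ‖x - y‖ := fun i hi => by
    rw [← mul_sub, abs_mul]
    exact (mul_le_of_le_one_left (abs_nonneg _) (he i)).trans (hf i (mem_inter.1 hi).1)
  refine (sum_le_card_nsmul _ _ _ this).trans ?_
  rw [nsmul_eq_mul]
  have h2 : ((A ∩ S).card : ℝ) ≤ 2 := by
    exact_mod_cast (card_le_card inter_subset_right).trans hS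
  have h3 : 0 ≤ L * ‖x - y‖ := by positivity
  nlinarith

lemma tool_disj {μ : ℕ → V →₀ ℝ} {C : ℝ} (hμ : WUC μ C) (P : ℕ → Prop)
    (hP : ∀ᶠ i in UU, P i) (f : ℕ → V → ℝ)
    (hR : ∀ᶠ i in UU, ∀ᶠ l in UU, ∀ x, f i x = 0 ∨ f l x = 0)
    {c B L : ℝ} {k0 : ℕ} (hc : 0 < c) (hL : 0 < L)
    (h1 : ∀ i, P i → c ≤ |pr (μ i) (f i)|) (h2 : ∀ i, P i → Dm k0 B (f i))
    (h3 : ∀ i, P i → ∀ x y, |f i x - f i y| ≤ L * ‖x - y‖) : False := by
  classical
  refine tool hμ P _ hP hR f hc (K := 2 * L) (by positivity) h1 h2 ?_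
  intro A hA hAR e he x y
  have key : ∀ z, (A.filter (fun i => f i z ≠ 0)).card ≤ 1 := fun z => by
    rw [card_le_one]
    intro a ha b hb
    rw [mem_filter] at ha hb
    by_contra hab
    rcases lt_or_gt_of_ne hab with h | h
    · rcases hAR a ha.1 b hb.1 h z with h | h
      · exact ha.2 h
      · exact hb.2 h
    · rcases hAR b hb.1 a ha.1 h z with h | h
      · exact hb.2 h
      · exact ha.2 h
  refine sum_diff_le A f e he hL.le x y (fun i hi => h3 i (hA i hi) x y)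
    (A.filter (fun i => f i x ≠ 0) ∪ A.filter (fun i => f i y ≠ 0))
    ((card_union_le _ _).trans (by linarith [key x, key y])) (fun i hi hi2 => ?_)
  rw [mem_union, mem_filter, mem_filter] at hi2
  push Not at hi2
  rw [hi2.1 hi, hi2.2 hi]

lemma lip_of_local (G : V → ℝ) {K : ℝ} (h : ∀ x, ∀ᶠ y in 𝓝 x, |G y - G x| ≤ K * ‖y - x‖)
    (x y : V) : |G x - G y| ≤ K * ‖x - y‖ := by
  have hG : Continuous G := by
    rw [continuous_iff_continuousAt]
    intro z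
    rw [ContinuousAt, tendsto_iff_norm_sub_tendsto_zero]
    have : Tendsto (fun w => K * ‖w - z‖) (𝓝 z) (𝓝 0) := by
      have h1 : Continuous (fun w : V => K * ‖w - z‖) := by fun_prop
      simpa using h1.tendsto z
    exact squeeze_zero' (Eventually.of_forall (fun _ => norm_nonneg _)) (h z) this
  let g : ℝ → V := fun t => y + t • (x - y)
  have hg : Continuous g := by fun_prop
  let s : Set ℝ := {t | |G (g t) - G y| ≤ K * ‖x - y‖ * t}
  have hs : IsClosed s := isClosed_le (by fun_prop) (by fun_prop)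
  have : Set.Icc (0 : ℝ) 1 ⊆ s := by
    refine (hs.inter isClosed_Icc).Icc_subset_of_forall_mem_nhdsWithin (by simp [s, g]) ?_
    intro t ht
    have h1 := (hg.tendsto t).eventually (h (g t))
    filter_upwards [nhdsWithin_le_nhds h1, self_mem_nhdsWithin] with u hu hut
    have h2 : ‖g u - g t‖ = (u - t) * ‖x - y‖ := by
      have : g u - g t = (u - t) • (x - y) := by simp only [g]; module
      rw [this, norm_smul, Real.norm_eq_abs, abs_of_pos (sub_pos.2 hut)]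
    have h3 : |G (g t) - G y| ≤ K * ‖x - y‖ * t := ht.1
    show |G (g u) - G y| ≤ K * ‖x - y‖ * u
    rw [h2] at hu
    have h4 := abs_sub_le (G (g u)) (G (g t)) (G y)
    nlinarith
  have h1 : |G (g 1) - G y| ≤ K * ‖x - y‖ * 1 := this ⟨zero_le_one, le_rfl⟩
  simpa [g] using h1

lemma tool_tri {μ : ℕ → V →₀ ℝ} {C : ℝ} (hμ : WUC μ C) (P : ℕ → Prop) (Rel : ℕ → ℕ → Prop)
    (hP : ∀ᶠ i in UU, P i) (hR : ∀ᶠ i in UU, ∀ᶠ l in UU, Rel i l) (f : ℕ → V → ℝ)
    (N : ℕ → V → Prop) {c B L : ℝ} {k0 : ℕ} (hc : 0 < c) (hL : 0 < L)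
    (h1 : ∀ i, P i → c ≤ |pr (μ i) (f i)|) (h2 : ∀ i, P i → Dm k0 B (f i))
    (h3 : ∀ i, P i → ∀ x y, |f i x - f i y| ≤ L * ‖x - y‖)
    (h4 : ∀ i, P i → ∀ x, ¬N i x → ∀ᶠ y in 𝓝 x, f i y = f i x)
    (h5 : ∀ i j l, P i → P j → P l → Rel i j → Rel j l → ∀ x, N i x → N j x → N l x → False) :
    False := by
  classical
  refine tool hμ P _ hP hR f hc (K := 2 * L) (by positivity) h1 h2 ?_
  intro A hA hAR e he
  refine lip_of_local (fun x => ∑ i ∈ A, e i * f i x) (fun x => ?_)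
  have key : (A.filter (fun i => N i x)).card ≤ 2 := by
    by_contra hh
    obtain ⟨a, b, d, ha, hb, hd, hab, had, hbd⟩ := two_lt_card_iff.1 (not_le.1 hh)
    have T : ∀ i j l, i ∈ A.filter (fun i => N i x) → j ∈ A.filter (fun i => N i x) →
        l ∈ A.filter (fun i => N i x) → i < j → j < l → False := fun i j l hi hj hl hij hjl => by
      rw [mem_filter] at hi hj hl
      exact h5 i j l (hA i hi.1) (hA j hj.1) (hA l hl.1) (hAR i hi.1 j hj.1 hij)
        (hAR j hj.1 l hl.1 hjl) x hi.2 hj.2 hl.2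
    rcases (by omega : (a < b ∧ b < d) ∨ (a < d ∧ d < b) ∨ (b < a ∧ a < d) ∨ (b < d ∧ d < a) ∨
      (d < a ∧ a < b) ∨ (d < b ∧ b < a)) with h | h | h | h | h | h
    · exact T a b d ha hb hd h.1 h.2
    · exact T a d b ha hd hb h.1 h.2
    · exact T b a d hb ha hd h.1 h.2
    · exact T b d a hb hd ha h.1 h.2
    · exact T d a b hd ha hb h.1 h.2
    · exact T d b a hd hb ha h.1 h.2
  have h6 : ∀ᶠ y in 𝓝 x, ∀ i ∈ A.filter (fun i => ¬N i x), f i y = f i x :=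
    (eventually_all_finset _).2 (fun i hi => by
      rw [mem_filter] at hi; exact h4 i (hA i hi.1) x hi.2)
  filter_upwards [h6] with y hy
  refine sum_diff_le A f e he hL.le y x (fun i hi => h3 i (hA i hi) y x) _ key
    (fun i hi hi2 => hy i (mem_filter.2 ⟨hi, fun h => hi2 (mem_filter.2 ⟨hi, h⟩)⟩))

end Vale.Agent.P124
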